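import Vale.Agent.P025.H16.GeoSec
import Vale.Agent.P025.R2.H206.Ext
import Vale.Agent.P025.R2.H206.ValDef

/-! # Partial characters; the interface between the tree and the end of the proof -/

open IntermediateField

namespace P025H855

open P025H641 P025H206 P025H16

universe u v w

/-- `χ` is a partial character on the finite set `S`: it is multiplicative on `S`, the class of a
constant is its class, and it has the pattern property for the elements of `S`. -/
structure PartChar (p : ℕ) [Fact p.Prime] (k' : Type u) [Field k'] [Algebra ℚ_[p] k']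
    {M : Type v} [Field M] [Algebra k' M] (S : Finset M) (χ : M → Cl p k') : Prop where
  mul : ∀ f ∈ S, ∀ g ∈ S, f ≠ 0 → g ≠ 0 → χ (f * g) = χ f + χ g
  const : ∀ c : k', c ≠ 0 → χ (algebraMap k' M c) = clsm p c
  pat : ∀ f, f ∉ Set.range (algebraMap k' M) → ∀ (r : ℕ) (A₀ A : Finset k'), IsFine p r A₀ A →
    (∀ a ∈ A, f - algebraMap k' M a ∈ S) →
      ∃ z, ∀ a ∈ A₀, z ≠ a ∧ χ (f - algebraMap k' M a) = clsm p (z - a)

section push

variable {p : ℕ} [Fact p.Prime] {k' : Type u} [Field k'] [Algebra ℚ_[p] k'] {F : Type v} [Field F]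
  [Algebra k' F] {M : Type w} [Field M] [Algebra k' M]

/-- partial characters of a subfield -/
theorem PartChar.push (j : F →+* M) (hj : ∀ c : k', j (algebraMap k' F c) = algebraMap k' M c)
    (h : ∀ S : Finset F, ∃ χ : F → Cl p k', PartChar p k' S χ) (S : Finset M)
    (hS : ∀ f ∈ S, ∃ f', j f' = f) : ∃ χ : M → Cl p k', PartChar p k' S χ := by
  classical
  obtain ⟨χ, hχ⟩ := h (S.preimage j j.injective.injOn)
  have hinv : ∀ f : F, Function.invFun j (j f) = f := Function.leftInverse_invFun j.injective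
  refine ⟨fun x => χ (Function.invFun j x), ?_, ?_, ?_⟩
  · intro f hf g hg hf0 hg0
    obtain ⟨f, rfl⟩ := hS f hf
    obtain ⟨g, rfl⟩ := hS g hg
    rw [← map_mul, hinv, hinv, hinv]
    refine hχ.mul f (by rwa [Finset.mem_preimage]) g (by rwa [Finset.mem_preimage]) ?_ ?_
    · rintro rfl; exact hf0 (map_zero j)
    · rintro rfl; exact hg0 (map_zero j)
  · intro c hc
    rw [← hj, hinv]
    exact hχ.const c hc
  · intro f hf r A₀ A hA hfS
    rcases A₀.eq_empty_or_nonempty with rfl | ⟨a₀, ha₀⟩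
    · exact ⟨0, by simp⟩
    obtain ⟨f₀, hf₀⟩ := hS _ (hfS a₀ (hA.subset ha₀))
    have h1 : f = j (f₀ + algebraMap k' F a₀) := by
      rw [map_add, hf₀, hj, sub_add_cancel]
    subst h1
    obtain ⟨z, hz⟩ := hχ.pat (f₀ + algebraMap k' F a₀) (by
      rintro ⟨c, hc⟩
      exact hf ⟨c, by rw [← hc, hj]⟩) r A₀ A hA (by
      intro a ha
      rw [Finset.mem_preimage, map_sub, hj]
      exact hfS a ha)
    refine ⟨z, fun a ha => ⟨(hz a ha).1, ?_⟩⟩
    rw [← (hz a ha).2, ← hj a, ← map_sub, hinv]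

end push

section inputs

variable (p : ℕ) [Fact p.Prime] {k : Type u} {K : Type v} [Field k] [Field K] [Algebra k K]
  (s : Gal(constClosure k K/k) →* Gal(maxUnr k K/K)) (G : Subgroup Gal(constClosure k K/k))
  (k' : Type w) [Field k'] [Algebra ℚ_[p] k'] [Algebra k' (maxUnr k K)]

/-- **(CHI)**: every finite set of elements fixed by `s(G)` has a partial character. -/
def HasChars : Prop :=
  ∀ S : Finset (maxUnr k K), (∀ f ∈ S, ∀ σ ∈ G, s σ f = f) →
    ∃ χ : maxUnr k K → Cl p k', PartChar p k' S χ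

/-- **(INJ)**: at most one place of the maximal unramified extension is stable under `s(G)`. -/
def UniqueStable : Prop :=
  ∀ W₁ W₂ : ValuationSubring (maxUnr k K),
    (∀ c : k, algebraMap k (maxUnr k K) c ∈ W₁) → (∀ c : k, algebraMap k (maxUnr k K) c ∈ W₂) →
    W₁ ≠ ⊤ → W₂ ≠ ⊤ → (∀ σ ∈ G, ∀ x ∈ W₁, s σ x ∈ W₁) → (∀ σ ∈ G, ∀ x ∈ W₂, s σ x ∈ W₂) →
      W₁ = W₂

end inputs

end P025H855
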