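import Vale.Agent.P025.H641.GeoStmt
import Vale.Agent.P025.H641.Every
import Vale.Agent.P025.R2.H206.ValDef

/-! # The local `p`-adic section conjecture: the statement

`k` is a `p`-adic field, `K` a function field of one variable over `k` (the function field of a
smooth proper geometrically connected curve `X / k`); `maxUnr k K`, `constClosure k K`, `Section`,
`IsRatPlace` are the notions of `H641/Stmt.lean`. -/

open IntermediateField

namespace P025H855

open P025H641 P025H206

universe u v w

section genus

variable (F : Type u) (L : Type v) [Field F] [Field L] [Algebra F L]

/-- the places of `L / F`: valuation rings of `L` containing `F`, different from `L` -/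
def Plc : Type v := {O : ValuationSubring L // (∀ a : F, algebraMap F L a ∈ O) ∧ O ≠ ⊤}

variable {L}

/-- `π` generates the maximal ideal of the valuation ring `O` -/
def IsUnif (O : ValuationSubring L) (π : L) : Prop :=
  O.valuation π < 1 ∧ ∀ x : L, O.valuation x < 1 → O.valuation x ≤ O.valuation π

variable {F}

/-- the Riemann-Roch space of a divisor `D`: the functions `f` with `ord_P f ≥ - D P` for all
places `P`, i.e. `π ^ D P * f` is regular at `P` for every uniformizer `π` at `P` -/
def RRSpace (D : Plc F L →₀ ℤ) : Submodule F L where
  carrier := {f | ∀ (P : Plc F L) (π : L), IsUnif P.1 π → π ^ D P * f ∈ P.1}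
  zero_mem' := fun P π _ => by rw [mul_zero]; exact P.1.zero_mem
  add_mem' := fun ha hb P π hπ => by
    rw [mul_add]
    exact P.1.add_mem _ _ (ha P π hπ) (hb P π hπ)
  smul_mem' := fun c x hx P π hπ => by
    rw [Algebra.smul_def, mul_left_comm]
    exact P.1.mul_mem _ _ (P.2.1 c) (hx P π hπ)

/-- the degree of a divisor (all places have degree one: `F` is algebraically closed) -/
def degD (D : Plc F L →₀ ℤ) : ℤ := D.sum (fun _ n => n)

variable (F L)

/-- the genus of a function field `L` over an algebraically closed field `F` (Riemann): the
supremum of `deg D + 1 - ℓ(D)` over all divisors `D` -/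
noncomputable def genus : ℕ∞ :=
  ⨆ D : Plc F L →₀ ℤ, (((degD D + 1 - Module.finrank F (RRSpace D)).toNat : ℕ) : ℕ∞)

end genus

section curve

variable (k : Type u) (K : Type v) [Field k] [Field K] [Algebra k K]

/-- the function field `K k̄` of the curve over the algebraic closure of `k` -/
noncomputable def geomField : IntermediateField (constClosure k K) (AlgebraicClosure K) :=
  IntermediateField.adjoin (constClosure k K) (Set.range (algebraMap K (AlgebraicClosure K)))

/-- `K / k` is the function field of a smooth proper geometrically connected curve of genus at
least two: it is a function field of one variable, `k` is algebraically closed in `K` and the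
genus of `K k̄ / k̄` is at least two -/
structure IsHyperbolic : Prop where
  funField : IsFunctionField k K
  constants : ∀ x : K, IsIntegral k x → ∃ c : k, algebraMap k K c = x
  genus : 2 ≤ genus (constClosure k K) (geomField k K)

variable {k K}

/-- `g` acts trivially on the constants: it lies in the geometric fundamental group -/
def IsGeomAut (g : GalOf (maxUnr k K)) : Prop :=
  ∀ x : AlgebraicClosure K, x ∈ constClosure k K → g.Maps x x

/-- `s'` is the conjugate of `s` by `g` -/
def IsConjBy (g : GalOf (maxUnr k K)) (s s' : Section k K) : Prop :=
  ∀ σ, s'.hom σ = g * s.hom σ * g⁻¹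

end curve

end P025H855
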