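import Vale.Agent.P025.R2.H855.Soft
import Vale.Agent.P025.R2.H855.Stmt

/-! # The bijection, from the existence and the uniqueness of stable places -/

open IntermediateField

namespace P025H855

open P025H641 P025H206 P025H16

universe u v w

variable {k : Type u} {K : Type v} [Field k] [CharZero k] [Field K] [Algebra k K]

lemma isGeomAut_iff (g : GalOf (maxUnr k K)) :
    IsGeomAut g ↔ TrivConst (k := k) (K := K) (g : Gal(maxUnr k K/K)) := by
  constructor
  · intro h y hy
    have hyc : (y : AlgebraicClosure K) ∈ constClosure k K :=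
      mem_algebraicClosure_iff.2 (isIntegral_coe.2 hy).isAlgebraic
    obtain ⟨y', hy', h2⟩ := h _ hyc
    have h3 : y' = y := Subtype.ext hy'
    rw [h3] at h2
    exact Subtype.ext h2
  · intro h x hx
    have hint : IsIntegral k x := (mem_algebraicClosure_iff.1 hx).isIntegral
    refine ⟨⟨x, mem_maxUnr_of_const _ hint⟩, rfl, ?_⟩
    exact congrArg (fun z : maxUnr k K => (z : AlgebraicClosure K))
      (h ⟨x, mem_maxUnr_of_const _ hint⟩ (isIntegral_coe.1 hint))

omit [CharZero k] in
lemma TrivConst.one : TrivConst (k := k) (K := K) 1 := fun _ _ => rfl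

omit [CharZero k] in
lemma TrivConst.mul {g h : Gal(maxUnr k K/K)} (hg : TrivConst (k := k) g)
    (hh : TrivConst (k := k) h) : TrivConst (k := k) (g * h) := by
  intro y hy
  rw [AlgEquiv.mul_apply, hh y hy, hg y hy]

omit [CharZero k] in
lemma TrivConst.inv {g : Gal(maxUnr k K/K)} (hg : TrivConst (k := k) g) :
    TrivConst (k := k) g⁻¹ := by
  intro y hy
  apply g.injective
  rw [hg y hy, ← AlgEquiv.mul_apply, mul_inv_cancel]
  rfl

variable (k K)

/-- conjugacy of sections under the geometric fundamental group -/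
def sectionSetoid : Setoid (Section k K) where
  r s s' := ∃ g : GalOf (maxUnr k K), IsGeomAut g ∧ IsConjBy g s s'
  iseqv :=
    { refl := fun s => ⟨1, (isGeomAut_iff _).2 TrivConst.one, fun σ => by simp⟩
      symm := by
        rintro s s' ⟨g, hg, h⟩
        refine ⟨g⁻¹, (isGeomAut_iff _).2 ((isGeomAut_iff _).1 hg).inv, fun σ => ?_⟩
        rw [h σ]
        group
      trans := by
        rintro s s' s'' ⟨g, hg, h⟩ ⟨g', hg', h'⟩
        refine ⟨g' * g, (isGeomAut_iff _).2
          (((isGeomAut_iff _).1 hg').mul ((isGeomAut_iff _).1 hg)), fun σ => ?_⟩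
        rw [h' σ, h σ]
        group }

variable {k K}

omit [CharZero k] in
lemma stabilizes_iff (s : Section k K) (W : ValuationSubring (maxUnr k K)) :
    Stabilizes s W ↔ ∀ σ : Gal(constClosure k K/k), ∀ x ∈ W, s.toHom σ x ∈ W := by
  constructor
  · intro h σ x hx
    exact h σ x _ ⟨x, rfl, rfl⟩ hx
  · rintro h σ x y ⟨x', hx', hy⟩ hx
    have h1 : x' = x := Subtype.ext hx'
    have h2 : s.toHom σ x' = y := Subtype.ext hy
    rw [← h2, h1]
    exact h σ x hx

omit [CharZero k] in
/-- conjugates of stable valuation rings -/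
lemma conj_stab {s s' : Section k K} {W : ValuationSubring (maxUnr k K)}
    (h : Stabilizes s W) {g : GalOf (maxUnr k K)} (hg : IsConjBy g s s') :
    ∃ W' : ValuationSubring (maxUnr k K), Stabilizes s' W' ∧
      W'.comap (algebraMap K (maxUnr k K)) = W.comap (algebraMap K (maxUnr k K)) := by
  let g' : Gal(maxUnr k K/K) := g
  have hinv : ∀ z, g'⁻¹ (g' z) = z := by
    intro z
    rw [← AlgEquiv.mul_apply, inv_mul_cancel]
    rfl
  refine ⟨W.comap ((g'⁻¹ : (maxUnr k K) ≃ₐ[K] (maxUnr k K)) : maxUnr k K →+* maxUnr k K), ?_, ?_⟩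
  · rw [stabilizes_iff] at h ⊢
    intro σ x hx
    rw [ValuationSubring.mem_comap] at hx ⊢
    have h1 : s'.toHom σ x = g' (s.toHom σ (g'⁻¹ x)) := by
      have h2 : s'.toHom σ = g' * s.toHom σ * g'⁻¹ := hg σ
      rw [h2]
      rfl
    have h3 : ((g'⁻¹ : (maxUnr k K) ≃ₐ[K] (maxUnr k K)) : maxUnr k K →+* maxUnr k K)
        (s'.toHom σ x) = s.toHom σ (g'⁻¹ x) := by
      rw [h1]
      exact hinv _
    rw [h3]
    exact h σ _ hx
  · ext x
    rw [ValuationSubring.mem_comap, ValuationSubring.mem_comap, ValuationSubring.mem_comap]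
    have h1 : ((g'⁻¹ : (maxUnr k K) ≃ₐ[K] (maxUnr k K)) : maxUnr k K →+* maxUnr k K)
        (algebraMap K (maxUnr k K) x) = algebraMap K (maxUnr k K) x := AlgEquiv.commutes _ _
    rw [h1]

omit [CharZero k] in
lemma ratPlace_ne_top {V : ValuationSubring K} (hV : IsRatPlace k K V) : V ≠ ⊤ := by
  rintro rfl
  have h := hV.discrete
  have h2 := h.not_a_field'
  apply h2
  rw [IsLocalRing.maximalIdeal_eq_bot]

/-- **The bijection** between rational places and conjugacy classes of sections. -/
theorem bijection_of (hK : IsFunctionField k K) (hgeo : ∀ s : Section k K, s.IsGeometric)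
    (huniq : ∀ (s : Section k K) (W₁ W₂ : ValuationSubring (maxUnr k K)),
      IsRatPlace k K (W₁.comap (algebraMap K (maxUnr k K))) →
      IsRatPlace k K (W₂.comap (algebraMap K (maxUnr k K))) →
      Stabilizes s W₁ → Stabilizes s W₂ → W₁ = W₂) :
    ∃ e : {V : ValuationSubring K // IsRatPlace k K V} ≃ Quotient (sectionSetoid k K),
      ∀ (V : {V : ValuationSubring K // IsRatPlace k K V}) (s : Section k K),
        e V = Quotient.mk (sectionSetoid k K) s ↔ ∃ W : ValuationSubring (maxUnr k K),
          W.comap (algebraMap K (maxUnr k K)) = V.1 ∧ Stabilizes s W := by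
  classical
  have hex : ∀ V : {V : ValuationSubring K // IsRatPlace k K V},
      ∃ (W : ValuationSubring (maxUnr k K)) (s : Section k K),
        W.comap (algebraMap K (maxUnr k K)) = V.1 ∧ Stabilizes s W := by
    intro V
    obtain ⟨W, hW⟩ := exists_val_extension (L := maxUnr k K) V.1
    obtain ⟨s, hs⟩ := exists_geo_section W (by rw [hW]; exact V.2) hK
    exact ⟨W, s, hW, hs⟩
  choose WV sV hWV hsV using hex
  let f : {V : ValuationSubring K // IsRatPlace k K V} → Quotient (sectionSetoid k K) :=
    fun V => Quotient.mk (sectionSetoid k K) (sV V)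
  have hf : ∀ (V : {V : ValuationSubring K // IsRatPlace k K V}) (s : Section k K),
      f V = Quotient.mk (sectionSetoid k K) s ↔ ∃ W : ValuationSubring (maxUnr k K),
        W.comap (algebraMap K (maxUnr k K)) = V.1 ∧ Stabilizes s W := by
    intro V s
    constructor
    · intro h
      obtain ⟨g, hg, hgs⟩ := Quotient.exact h
      obtain ⟨W', h1, h2⟩ := conj_stab (hsV V) hgs
      exact ⟨W', h2.trans (hWV V), h1⟩
    · rintro ⟨W, hW, hs⟩
      apply Quotient.sound
      obtain ⟨g, hg1, -, hg3⟩ := exists_conj hK (sV V).isSection s.isSection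
        (W₁ := WV V) (W₂ := W) (hW.trans (hWV V).symm) (by rw [hWV]; exact V.2)
        ((stabilizes_iff _ _).1 (hsV V)) ((stabilizes_iff _ _).1 hs)
      exact ⟨g, (isGeomAut_iff _).2 hg1, hg3⟩
  have hbij : Function.Bijective f := by
    constructor
    · intro V V' h
      obtain ⟨W, hW, hs⟩ := (hf V (sV V')).1 h
      have h1 := huniq (sV V') W (WV V') (by rw [hW]; exact V.2) (by rw [hWV]; exact V'.2) hs
        (hsV V')
      apply Subtype.ext
      rw [← hW, ← hWV V', h1]
    · intro q
      obtain ⟨s, rfl⟩ := Quotient.exists_rep q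
      obtain ⟨W, hW, hst⟩ := hgeo s
      exact ⟨⟨_, hW⟩, (hf _ s).2 ⟨W, rfl, hst⟩⟩
  exact ⟨Equiv.ofBijective f hbij, hf⟩

end P025H855
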