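import Vale.Agent.P025.R2.H855.Chi
import Vale.Agent.P025.R2.H855.Final1
import Vale.Agent.P025.R2.H206.Stable

/-! # The local section conjecture from partial characters and uniqueness of stable places -/

open IntermediateField Polynomial

namespace P025H855

open P025H641 P025H206 P025H16

universe u v w

/-- the input of the end of the proof, for a finite extension `k'` of `k` containing the `p`-th
roots of unity, embedded in the maximal unramified extension: partial characters, and uniqueness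
of stable places -/
def MainInput (p : ℕ) [Fact p.Prime] (k : Type u) (K : Type v) [Field k] [Algebra ℚ_[p] k]
    [Field K] [Algebra k K] : Prop :=
  ∀ (s : Section k K) (k' : Type u) [Field k'] [Algebra k k'] [FiniteDimensional k k']
    [Algebra ℚ_[p] k'] [IsScalarTower ℚ_[p] k k'] [Algebra k' (maxUnr k K)]
    [IsScalarTower k k' (maxUnr k K)] (ζ : k'), IsPrimitiveRoot ζ p →
      HasChars p s.toHom (fixC k' s.toHom) k' ∧ UniqueStable s.toHom (fixC k' s.toHom)

section normal

variable {k : Type u} {K : Type v} [Field k] [Field K] [Algebra k K]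
  {s : Gal(constClosure k K/k) →* Gal(maxUnr k K/K)} (k' : Type w) [Field k'] [Algebra k k']
  [Algebra k' (maxUnr k K)] [IsScalarTower k k' (maxUnr k K)]

/-- the subgroup fixing `k (μ_p)` is normal -/
lemma normal_fixC {p : ℕ} (hp : 0 < p) {ζ : k'} (hζ : IsPrimitiveRoot ζ p)
    (hgen : ∀ c : k', ∃ P : k[X], aeval ζ P = c) (σ : Gal(constClosure k K/k))
    {g : Gal(constClosure k K/k)} (hg : g ∈ fixC k' s) : σ⁻¹ * g * σ ∈ fixC k' s := by
  have : NeZero p := ⟨hp.ne'⟩
  rw [mem_fixC] at hg ⊢
  intro c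
  obtain ⟨P, rfl⟩ := hgen c
  have hζN : IsPrimitiveRoot (algebraMap k' (maxUnr k K) ζ) p :=
    hζ.map_of_injective (algebraMap k' (maxUnr k K)).injective
  obtain ⟨i, -, hi⟩ := hζN.eq_pow_of_pow_eq_one (ξ := s σ (algebraMap k' (maxUnr k K) ζ)) (by
    rw [← map_pow, hζN.pow_eq_one, map_one])
  have h1 : s σ (algebraMap k' (maxUnr k K) (aeval ζ P)) =
      algebraMap k' (maxUnr k K) (aeval (ζ ^ i) P) := by
    have h2 := aeval_algHom_apply
      ((((s σ : (maxUnr k K) ≃ₐ[K] (maxUnr k K)) : (maxUnr k K) →ₐ[K] (maxUnr k K)).restrictScalars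
        k)) (algebraMap k' (maxUnr k K) ζ) P
    rw [← aeval_algebraMap_apply, ← aeval_algebraMap_apply, map_pow, hi]
    exact h2.symm
  rw [map_mul, map_mul, AlgEquiv.mul_apply, AlgEquiv.mul_apply, h1, hg, ← h1,
    ← AlgEquiv.mul_apply, ← map_mul, inv_mul_cancel, map_one, AlgEquiv.one_apply]

end normal

section descent

variable {p : ℕ} [Fact p.Prime] {k : Type u} {K : Type v} [Field k] [CharZero k] [Field K]
  [Algebra k K] (s : Section k K) (k' : Type w) [Field k'] [Algebra k k'] [FiniteDimensional k k']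
  [Algebra ℚ_[p] k'] [FiniteDimensional ℚ_[p] k'] [Algebra k' (maxUnr k K)]
  [IsScalarTower k k' (maxUnr k K)]

/-- **Sections are geometric**, from partial characters and uniqueness of stable places over
`k (μ_p)`. -/
theorem isGeometric_of (hK : IsFunctionField k K) {ζ : k'} (hζ : IsPrimitiveRoot ζ p)
    (hgen : ∀ c : k', ∃ P : k[X], aeval ζ P = c)
    (hchars : HasChars p s.toHom (fixC k' s.toHom) k')
    (huniq : UniqueStable s.toHom (fixC k' s.toHom)) : s.IsGeometric := by
  have hpp : p.Prime := Fact.out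
  obtain ⟨W, hWk, hWtop, hst⟩ := exists_stable_of_chars hK s.isSection
    (base_fixC k' s.isSection) hζ hchars
  -- `W` is stable under the whole group
  have hall : ∀ σ : Gal(constClosure k K/k), ∀ x ∈ W, s.toHom σ x ∈ W := by
    intro σ x hx
    -- the conjugate valuation ring
    let W' : ValuationSubring (maxUnr k K) :=
      W.comap ((s.toHom σ : (maxUnr k K) ≃ₐ[K] (maxUnr k K)) : maxUnr k K →+* maxUnr k K)
    have hmem : ∀ y, y ∈ W' ↔ s.toHom σ y ∈ W := fun y => Iff.rfl
    have hcancel : ∀ (τ : Gal(constClosure k K/k)) (y : maxUnr k K),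
        s.toHom τ (s.toHom τ⁻¹ y) = y := by
      intro τ y
      rw [← AlgEquiv.mul_apply, ← map_mul, mul_inv_cancel, map_one, AlgEquiv.one_apply]
    have h1 : W' = W := by
      refine huniq W' W ?_ hWk ?_ hWtop ?_ hst
      · intro c
        rw [hmem, IsScalarTower.algebraMap_apply k K (maxUnr k K), AlgEquiv.commutes,
          ← IsScalarTower.algebraMap_apply]
        exact hWk c
      · intro htop
        apply hWtop
        ext y
        simp only [ValuationSubring.mem_top, iff_true]
        have h2 : s.toHom σ⁻¹ y ∈ W' := by rw [htop]; exact ValuationSubring.mem_top _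
        rw [hmem, hcancel] at h2
        exact h2
      · intro g hg y hy
        rw [hmem] at hy ⊢
        have h2 := normal_fixC k' (s := s.toHom) hpp.pos hζ hgen σ⁻¹ hg
        rw [inv_inv] at h2
        have h3 := hst _ h2 _ hy
        rw [map_mul, map_mul, AlgEquiv.mul_apply, AlgEquiv.mul_apply] at h3
        have h4 : s.toHom σ⁻¹ (s.toHom σ y) = y := by
          rw [← AlgEquiv.mul_apply, ← map_mul, inv_mul_cancel, map_one, AlgEquiv.one_apply]
        rwa [h4] at h3
    rw [← hmem, h1]
    exact hx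
  have hst' : Stabilizes s W := (stabilizes_iff s W).2 hall
  exact ⟨W, geometric_of_stable hK s W hWk hWtop hst', hst'⟩

omit [CharZero k] [FiniteDimensional k k'] [Algebra ℚ_[p] k'] [FiniteDimensional ℚ_[p] k']
  [Algebra k k'] [IsScalarTower k k' (maxUnr k K)] in
/-- uniqueness of the place of a section -/
theorem eq_of_stabilizes (huniq : UniqueStable s.toHom (fixC k' s.toHom))
    {W₁ W₂ : ValuationSubring (maxUnr k K)}
    (h₁ : IsRatPlace k K (W₁.comap (algebraMap K (maxUnr k K))))
    (h₂ : IsRatPlace k K (W₂.comap (algebraMap K (maxUnr k K))))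
    (hs₁ : Stabilizes s W₁) (hs₂ : Stabilizes s W₂) : W₁ = W₂ := by
  have htop : ∀ {W : ValuationSubring (maxUnr k K)},
      IsRatPlace k K (W.comap (algebraMap K (maxUnr k K))) → W ≠ ⊤ := by
    rintro W h rfl
    apply ratPlace_ne_top h
    ext x
    simp [ValuationSubring.mem_comap]
  exact huniq W₁ W₂ (const_mem' W₁ h₁) (const_mem' W₂ h₂) (htop h₁) (htop h₂)
    (fun σ _ => (stabilizes_iff s W₁).1 hs₁ σ) (fun σ _ => (stabilizes_iff s W₂).1 hs₂ σ)

end descent

/-- **The local section conjecture for `K / k`**, from the main input. -/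
theorem conjecture_of_mainInput (p : ℕ) [Fact p.Prime] (k : Type u) [Field k] [Algebra ℚ_[p] k]
    [FiniteDimensional ℚ_[p] k] (K : Type v) [Field K] [Algebra k K] [CharZero k]
    (hK : IsFunctionField k K) (hmain : MainInput p k K) :
    ∃ e : {V : ValuationSubring K // IsRatPlace k K V} ≃ Quotient (sectionSetoid k K),
      ∀ (V : {V : ValuationSubring K // IsRatPlace k K V}) (s : Section k K),
        e V = Quotient.mk (sectionSetoid k K) s ↔ ∃ W : ValuationSubring (maxUnr k K),
          W.comap (algebraMap K (maxUnr k K)) = V.1 ∧ Stabilizes s W := by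
  have hpp : p.Prime := Fact.out
  -- adjoin the roots of unity
  obtain ⟨ζ, hζroot⟩ := IsAlgClosed.exists_root (cyclotomic p (AlgebraicClosure k))
    (degree_cyclotomic_pos p _ hpp.pos).ne'
  have hnz : NeZero ((p : ℕ) : AlgebraicClosure k) := ⟨by exact_mod_cast hpp.ne_zero⟩
  have hζ : IsPrimitiveRoot ζ p := isRoot_cyclotomic_iff.1 hζroot
  have hintk : IsIntegral k ζ :=
    isIntegral_of_pow' hpp.pos (by rw [hζ.pow_eq_one]; exact isIntegral_one)
  have hfin1 : FiniteDimensional k k⟮ζ⟯ := IntermediateField.adjoin.finiteDimensional hintk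
  have hfin2 : FiniteDimensional ℚ_[p] k⟮ζ⟯ := FiniteDimensional.trans ℚ_[p] k k⟮ζ⟯
  set z : k⟮ζ⟯ := ⟨ζ, IntermediateField.mem_adjoin_simple_self k ζ⟩ with hzdef
  have hz : IsPrimitiveRoot z p :=
    IsPrimitiveRoot.of_map_of_injective (f := k⟮ζ⟯.val) hζ Subtype.val_injective
  have hgen : ∀ c : k⟮ζ⟯, ∃ P : k[X], aeval z P = c := by
    intro x
    have hx : (x : AlgebraicClosure k) ∈ Algebra.adjoin k {ζ} := by
      rw [← IntermediateField.adjoin_simple_toSubalgebra_of_isAlgebraic hintk.isAlgebraic]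
      exact x.2
    rw [Algebra.adjoin_singleton_eq_range_aeval] at hx
    obtain ⟨P, hP⟩ := hx
    refine ⟨P, Subtype.ext ?_⟩
    have h1 : ((aeval z P : k⟮ζ⟯) : AlgebraicClosure k) = aeval ζ P :=
      (aeval_algHom_apply (k⟮ζ⟯).val z P).symm
    rw [h1]
    exact hP
  -- the embedding
  let e : k⟮ζ⟯ →ₐ[k] AlgebraicClosure K := IsAlgClosed.lift
  let ι : k⟮ζ⟯ →+* maxUnr k K := (e : k⟮ζ⟯ →+* AlgebraicClosure K).codRestrict
    (maxUnr k K).toSubfield.toSubring (fun c => mem_maxUnr_of_const _
      ((Algebra.IsAlgebraic.isAlgebraic (R := k) c).isIntegral.map e))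
  let _ : Algebra k⟮ζ⟯ (maxUnr k K) := ι.toAlgebra
  have htow : IsScalarTower k k⟮ζ⟯ (maxUnr k K) := IsScalarTower.of_algebraMap_eq (fun c => by
    apply Subtype.ext
    exact (e.commutes c).symm)
  refine bijection_of hK (fun s => ?_) (fun s W₁ W₂ h₁ h₂ hs₁ hs₂ => ?_)
  · obtain ⟨hc, hu⟩ := hmain s k⟮ζ⟯ z hz
    exact isGeometric_of s k⟮ζ⟯ hK hz hgen hc hu
  · obtain ⟨-, hu⟩ := hmain s k⟮ζ⟯ z hz
    exact eq_of_stabilizes s k⟮ζ⟯ hu h₁ h₂ hs₁ hs₂

end P025H855
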