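import Vale.Agent.P025.R2.H855.ResW
import Vale.Agent.P025.R2.H63.Lead
import Vale.Agent.P025.R2.H720.Act

/-! # Partial characters from a valuation ring which is stable on a finite level -/

open IntermediateField Polynomial

namespace P025H855

open P025H641 P025H720

universe u v w

section fin

variable {k : Type u} {N : Type w} [Field k] [Field N] [Algebra k N]

/-- finite generation and integrality give a function field -/
theorem isFunctionField_adjoin (S : Finset N) {T : N}
    (hTF : T ∈ IntermediateField.adjoin k (S : Set N)) (hT : Transcendental k T)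
    (hint : ∀ f ∈ S, IsIntegral (Algebra.adjoin k {T}) f) :
    IsFunctionField k (IntermediateField.adjoin k (S : Set N)) := by
  classical
  set F := IntermediateField.adjoin k (S : Set N) with hF
  let T' : F := ⟨T, hTF⟩
  have hT' : Transcendental k T' := by
    intro h
    exact hT (h.algHom F.val)
  refine ⟨T', hT', ?_⟩
  have hSF : ∀ f ∈ S, f ∈ F := fun f hf => IntermediateField.subset_adjoin _ _ hf
  let S' : Finset F := S.attach.image (fun f => ⟨f.1, hSF f.1 f.2⟩)
  set A : IntermediateField k⟮T'⟯ F := IntermediateField.adjoin k⟮T'⟯ (S' : Set F) with hA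
  have hAtop : A = ⊤ := by
    rw [eq_top_iff]
    intro x _
    have key : ∀ y (hy : y ∈ IntermediateField.adjoin k (S : Set N)), (⟨y, hy⟩ : F) ∈ A := by
      intro y hy
      induction hy using IntermediateField.adjoin_induction with
      | mem y hy =>
        apply IntermediateField.subset_adjoin
        rw [Finset.mem_coe, Finset.mem_image]
        exact ⟨⟨y, hy⟩, Finset.mem_attach _ _, rfl⟩
      | algebraMap c => exact A.algebraMap_mem (algebraMap k k⟮T'⟯ c)
      | add y z hy hz h1 h2 => exact A.add_mem h1 h2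
      | inv y hy h1 => exact A.inv_mem h1
      | mul y z hy hz h1 h2 => exact A.mul_mem h1 h2
    exact key x.1 x.2
  have hmem : ∀ z ∈ Algebra.adjoin k {T}, ∃ z' : k⟮T'⟯, ((z' : F) : N) = z := by
    intro z hz
    induction hz using Algebra.adjoin_induction with
    | mem z hz =>
      have hz' : z = T := hz
      exact ⟨⟨T', mem_adjoin_simple_self k T'⟩, hz'.symm⟩
    | algebraMap c => exact ⟨algebraMap k k⟮T'⟯ c, rfl⟩
    | add a b _ _ ha hb =>
      obtain ⟨a', ha'⟩ := ha
      obtain ⟨b', hb'⟩ := hb
      exact ⟨a' + b', by rw [← ha', ← hb']; rfl⟩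
    | mul a b _ _ ha hb =>
      obtain ⟨a', ha'⟩ := ha
      obtain ⟨b', hb'⟩ := hb
      exact ⟨a' * b', by rw [← ha', ← hb']; rfl⟩
  have hint' : ∀ x ∈ (S' : Set F), IsIntegral k⟮T'⟯ x := by
    intro x hx
    obtain ⟨f, -, rfl⟩ := Finset.mem_image.1 (Finset.mem_coe.1 hx)
    obtain ⟨P, hP, hPf⟩ := hint f.1 f.2
    choose z hz using hmem
    have hinj : Function.Injective (fun a : k⟮T'⟯ => ((a : F) : N)) := fun a b hab =>
      Subtype.ext (Subtype.ext hab)
    let ψ : Algebra.adjoin k {T} →+* k⟮T'⟯ :=
      { toFun := fun a => z a.1 a.2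
        map_one' := hinj (by simp only [hz]; rfl)
        map_zero' := hinj (by simp only [hz]; rfl)
        map_add' := fun a b => hinj (by
          show ((z (a + b).1 (a + b).2 : F) : N) = ((z a.1 a.2 : F) : N) + ((z b.1 b.2 : F) : N)
          rw [hz, hz, hz]; rfl)
        map_mul' := fun a b => hinj (by
          show ((z (a * b).1 (a * b).2 : F) : N) = ((z a.1 a.2 : F) : N) * ((z b.1 b.2 : F) : N)
          rw [hz, hz, hz]; rfl) }
    refine ⟨P.map ψ, hP.map ψ, ?_⟩
    rw [eval₂_map]
    apply (algebraMap F N).injective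
    rw [hom_eval₂, map_zero]
    have h1 : (algebraMap F N).comp ((algebraMap k⟮T'⟯ F).comp ψ) =
        algebraMap (Algebra.adjoin k {T}) N := RingHom.ext (fun a => hz a.1 a.2)
    rw [h1]
    exact hPf
  have hfinA : FiniteDimensional k⟮T'⟯ A := by
    rw [hA]
    have := S'.finite_toSet
    exact IntermediateField.finiteDimensional_adjoin hint'
  rw [hAtop] at hfinA
  exact LinearEquiv.finiteDimensional
    (IntermediateField.topEquiv (F := k⟮T'⟯) (E := F)).toLinearEquiv

end fin

section stab

variable {k : Type u} {kb : Type v} {N : Type w} [Field k] [Field kb] [Field N] [Algebra k kb]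
  [Algebra k N] [Algebra kb N] [IsScalarTower k kb N] {G : Type*} [Group G]
  [MulSemiringAction G N]

theorem fix_adjoin (S : Set N) (hk : ∀ (g : G) (c : k), g • algebraMap k N c = algebraMap k N c)
    (hS : ∀ f ∈ S, ∀ g : G, g • f = f) (x : N) (hx : x ∈ IntermediateField.adjoin k S) (g : G) :
    g • x = x := by
  induction hx using IntermediateField.adjoin_induction with
  | mem y hy => exact hS y hy g
  | algebraMap c => exact hk g c
  | add y z hy hz h1 h2 => rw [smul_add, h1, h2]
  | inv y hy h1 => rw [smul_inv'', h1]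
  | mul y z hy hz h1 h2 => rw [smul_mul', h1, h2]

theorem smul_mem_adjoin (S : Set N)
    (hk : ∀ (g : G) (c : kb), g • algebraMap kb N c ∈ (algebraMap kb N).range)
    (hS : ∀ f ∈ S, ∀ g : G, g • f = f) (x : N) (hx : x ∈ IntermediateField.adjoin kb S) (g : G) :
    g • x ∈ IntermediateField.adjoin kb S := by
  induction hx using IntermediateField.adjoin_induction with
  | mem y hy =>
    have h1 : g • y = y := hS y hy g
    rw [h1]
    exact IntermediateField.subset_adjoin _ _ hy
  | algebraMap c =>
    obtain ⟨c', hc'⟩ := hk g c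
    rw [← hc']
    exact IntermediateField.algebraMap_mem _ c'
  | add y z hy hz h1 h2 =>
    rw [smul_add]
    exact add_mem h1 h2
  | inv y hy h1 =>
    rw [smul_inv'']
    exact inv_mem h1
  | mul y z hy hz h1 h2 =>
    rw [smul_mul']
    exact mul_mem h1 h2

theorem adjoin_le_adjoin (S : Set N) (x : N) (hx : x ∈ IntermediateField.adjoin k S) :
    x ∈ IntermediateField.adjoin kb S := by
  induction hx using IntermediateField.adjoin_induction with
  | mem y hy => exact IntermediateField.subset_adjoin _ _ hy
  | algebraMap c =>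
    rw [IsScalarTower.algebraMap_apply k kb N]
    exact IntermediateField.algebraMap_mem _ _
  | add y z hy hz h1 h2 => exact add_mem h1 h2
  | inv y hy h1 => exact inv_mem h1
  | mul y z hy hz h1 h2 => exact mul_mem h1 h2

theorem smul_lt_of_stable (S : Set N) (W : ValuationSubring N)
    (hk : ∀ (g : G) (c : kb), g • algebraMap kb N c ∈ (algebraMap kb N).range)
    (hS : ∀ f ∈ S, ∀ g : G, g • f = f)
    (hst : ∀ g : G, ∀ x ∈ IntermediateField.adjoin kb S, x ∈ W → g • x ∈ W)
    (g : G) (x : N) (hx : x ∈ IntermediateField.adjoin kb S) (hlt : W.valuation x < 1) :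
    W.valuation (g • x) < 1 := by
  by_contra hcon
  rw [not_lt] at hcon
  have hx0 : g • x ≠ 0 := by
    intro h0
    rw [h0, map_zero] at hcon
    exact absurd hcon (not_le.2 zero_lt_one)
  have hx0' : x ≠ 0 := by
    rintro rfl
    exact hx0 (smul_zero g)
  have h1 : (g • x)⁻¹ ∈ W := by
    rw [← W.valuation_le_one_iff, map_inv₀]
    exact inv_le_one_of_one_le₀ hcon
  rw [← smul_inv''] at h1
  have h2 := hst g⁻¹ _ (smul_mem_adjoin S hk hS _ (inv_mem hx) g) h1
  rw [inv_smul_smul, ← W.valuation_le_one_iff, map_inv₀] at h2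
  have h3 : 0 < W.valuation x := zero_lt_iff.2 ((_root_.map_ne_zero _).2 hx0')
  exact absurd ((inv_le_one₀ h3).1 h2) (not_le.2 hlt)

end stab

section place

variable {p : ℕ} [Fact p.Prime] {k : Type u} [Field k] [Algebra ℚ_[p] k]
  [FiniteDimensional ℚ_[p] k] {kb : Type v} [Field kb] [Algebra k kb] [IsGalois k kb]
  [IsAlgClosed kb] {N : Type w} [Field N] [Algebra k N] [Algebra kb N] [IsScalarTower k kb N]
  [MulSemiringAction Gal(kb/k) N] [Equi Gal(kb/k) kb N]

/-- **Partial characters from a valuation ring which is stable on a finite level.** -/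
theorem partChar_of_stableOn (htr : ∀ T x : N, Transcendental kb T →
      IsAlgebraic (Algebra.adjoin kb {T}) x) {ζ : k} (hζ : IsPrimitiveRoot ζ p) (S : Finset N)
    (hS : ∀ f ∈ S, ∀ g : Gal(kb/k), g • f = f) {T : N}
    (hTS : T ∈ Algebra.adjoin k ((S : Set N) ∪ (fun x => x⁻¹) '' S))
    (hT : Transcendental kb T) (hint : ∀ f ∈ S, IsIntegral (Algebra.adjoin k {T}) f)
    {W : ValuationSubring N} (hW : ∀ a : kb, algebraMap kb N a ∈ W) (hTW : T ∉ W)
    (hst : ∀ g : Gal(kb/k), ∀ x ∈ IntermediateField.adjoin kb (S : Set N), x ∈ W → g • x ∈ W) :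
    ∃ χ : N → Cl p k, PartChar p k S χ := by
  classical
  have hchar : CharZero k := charZero_of_injective_algebraMap (algebraMap ℚ_[p] k).injective
  have hkT : Transcendental k T := fun h => hT (h.tower_top kb)
  have hWtop : W ≠ ⊤ := by
    rintro rfl
    exact hTW (ValuationSubring.mem_top _)
  have hTF : T ∈ IntermediateField.adjoin k (S : Set N) := by
    have h1 : Algebra.adjoin k ((S : Set N) ∪ (fun x => x⁻¹) '' S) ≤
        (IntermediateField.adjoin k (S : Set N)).toSubalgebra := by
      rw [Algebra.adjoin_le_iff]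
      rintro x (hx | ⟨y, hy, rfl⟩)
      · exact IntermediateField.subset_adjoin _ _ hx
      · exact IntermediateField.inv_mem _ (IntermediateField.subset_adjoin _ _ hy)
    exact h1 hTS
  have hconst : ∀ (g : Gal(kb/k)) (a : kb), g • algebraMap kb N a = algebraMap kb N (g a) :=
    fun g a => Equi.smul_algebraMap g a
  have hkb : ∀ (g : Gal(kb/k)) (a : kb), g • algebraMap kb N a ∈ (algebraMap kb N).range :=
    fun g a => ⟨g a, (hconst g a).symm⟩
  have hkk : ∀ (g : Gal(kb/k)) (c : k), g • algebraMap k N c = algebraMap k N c := by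
    intro g c
    rw [IsScalarTower.algebraMap_apply k kb N, hconst, g.commutes]
  have hS' : ∀ f ∈ (S : Set N), ∀ g : Gal(kb/k), g • f = f := fun f hf => hS f hf
  have hFL : ∀ x ∈ IntermediateField.adjoin k (S : Set N),
      x ∈ IntermediateField.adjoin kb (S : Set N) := adjoin_le_adjoin _
  have hFfix : ∀ x ∈ IntermediateField.adjoin k (S : Set N), ∀ g : Gal(kb/k), g • x = x :=
    fix_adjoin _ hkk hS'
  have hlt : ∀ (g : Gal(kb/k)), ∀ x ∈ IntermediateField.adjoin kb (S : Set N),
      W.valuation x < 1 → W.valuation (g • x) < 1 := smul_lt_of_stable _ W hkb hS' hst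
  have hfun := isFunctionField_adjoin (k := k) S hTF hkT hint
  generalize hF : IntermediateField.adjoin k (S : Set N) = F at *
  generalize hL : IntermediateField.adjoin kb (S : Set N) = L at *
  -- the place
  let V : ValuationSubring F := W.comap (algebraMap F N)
  have hVmem : ∀ x : F, x ∈ V ↔ (x : N) ∈ W := fun x => Iff.rfl
  have hVlt : ∀ x : F, V.valuation x < 1 ↔ W.valuation (x : N) < 1 := by
    intro x
    exact (comap_isEquiv (F := F) W).lt_one_iff_lt_one (x := x)
  have hVk : ∀ c : k, algebraMap k F c ∈ V := by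
    intro c
    rw [hVmem]
    have h1 : ((algebraMap k F c : F) : N) = algebraMap kb N (algebraMap k kb c) := by
      rw [← IsScalarTower.algebraMap_apply]
      rfl
    rw [h1]
    exact hW _
  have hVtop : V ≠ ⊤ := by
    intro h
    have h1 : (⟨T, hTF⟩ : F) ∈ V := by rw [h]; exact ValuationSubring.mem_top _
    exact hTW h1
  have hVrat : IsRatPlace k F V := by
    refine ⟨⟨hVk, hfun.dvr V hVk hVtop⟩, ?_⟩
    intro x hx
    obtain ⟨a, ha⟩ := exists_const_near' htr hW hWtop ((hVmem x).1 hx)
    have hu : (x : N) - algebraMap kb N a ∈ L := L.sub_mem (hFL _ x.2) (L.algebraMap_mem _)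
    have hfix : ∀ g : Gal(kb/k), g a = a := by
      intro g
      have h1 := hlt g _ hu ha
      rw [smul_sub, hFfix _ x.2, hconst] at h1
      by_contra hne
      have h2 : W.valuation (algebraMap kb N (g a - a)) < 1 := by
        have h3 : algebraMap kb N (g a - a) =
            ((x : N) - algebraMap kb N a) - ((x : N) - algebraMap kb N (g a)) := by
          rw [map_sub]; ring
        rw [h3]
        exact (Valuation.map_sub _ _ _).trans_lt (max_lt ha h1)
      rw [val_kb hW (sub_ne_zero.2 hne)] at h2
      exact lt_irrefl _ h2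
    obtain ⟨c, hc⟩ := (InfiniteGalois.mem_range_algebraMap_iff_fixed (k := k) (K := kb) a).2 hfix
    refine ⟨c, ?_⟩
    rw [hVlt]
    have h1 : ((x - algebraMap k F c : F) : N) = (x : N) - algebraMap kb N a := by
      rw [← hc, ← IsScalarTower.algebraMap_apply]
      rfl
    rw [h1]
    exact ha
  have hall : ∀ S' : Finset F, ∃ χ : F → Cl p k, PartChar p k S' χ :=
    fun S' => P025H63.partChar_of_ratPlace hζ hVrat S'
  exact PartChar.push (k' := k) (algebraMap F N) (fun c => rfl) hall S (fun f hf =>
    ⟨⟨f, by rw [← hF]; exact IntermediateField.subset_adjoin _ _ hf⟩, rfl⟩)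

end place

end P025H855
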