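import Vale.Agent.P025.R2.H855.Noe
import Vale.Agent.P025.R2.H855.PlaceChar
import Vale.Agent.P025.R2.H109.VFix

/-! # Partial characters from the fixed vertices of the tree -/

open IntermediateField Polynomial

namespace P025H855

open P025H641 P025H720 P025H109

universe u v w x

section trivial

variable {p : ℕ} [Fact p.Prime] {k : Type u} [Field k] [Algebra ℚ_[p] k] {N : Type w} [Field N]
  [Algebra k N]

/-- partial characters on a set of constants -/
theorem partChar_of_const (S : Finset N) (hS : ∀ f ∈ S, f ∈ Set.range (algebraMap k N)) :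
    ∃ χ : N → Cl p k, PartChar p k S χ := by
  classical
  have hinj := (algebraMap k N).injective
  have hinv : ∀ c : k, Function.invFun (algebraMap k N) (algebraMap k N c) = c :=
    Function.leftInverse_invFun hinj
  refine ⟨fun x => clsm p (Function.invFun (algebraMap k N) x), ?_, ?_, ?_⟩
  · intro f hf g hg hf0 hg0
    obtain ⟨a, rfl⟩ := hS f hf
    obtain ⟨b, rfl⟩ := hS g hg
    rw [← map_mul, hinv, hinv, hinv]
    have ha0 : a ≠ 0 := by rintro rfl; exact hf0 (map_zero _)
    have hb0 : b ≠ 0 := by rintro rfl; exact hg0 (map_zero _)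
    exact clsm_mul a b ha0 hb0
  · intro c hc
    rw [hinv]
  · intro f hf r A₀ A hA hfS
    rcases A₀.eq_empty_or_nonempty with rfl | ⟨a₀, ha₀⟩
    · exact ⟨0, by simp⟩
    · exfalso
      obtain ⟨b, hb⟩ := hS _ (hfS a₀ (hA.subset ha₀))
      exact hf ⟨b + a₀, by rw [map_add, hb, sub_add_cancel]⟩

end trivial

section alg

variable {p : ℕ} [Fact p.Prime] {k : Type x} [Field k] {kb : Type v} [Field kb] [Algebra k kb]
  {C : Type u} [NormedField C] {N : Type w} [Field N]
  [Algebra kb C] [Algebra kb N] [Algebra k N] [IsScalarTower k kb N] {G : Type*} [Group G]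
  [MulSemiringAction G N]

theorem adjoin_le_up {T T' : N} {c : k} (hc : T' * algebraMap k N c = T) (z : N)
    (hz : z ∈ Algebra.adjoin k {T}) : z ∈ Algebra.adjoin kb {T'} := by
  induction hz using Algebra.adjoin_induction with
  | mem z hz =>
    have hz' : z = T := hz
    rw [hz', ← hc]
    refine Subalgebra.mul_mem _ (Algebra.subset_adjoin rfl) ?_
    rw [IsScalarTower.algebraMap_apply k kb N]
    exact Subalgebra.algebraMap_mem _ _
  | algebraMap a =>
    rw [IsScalarTower.algebraMap_apply k kb N]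
    exact Subalgebra.algebraMap_mem _ _
  | add a b _ _ ha hb => exact Subalgebra.add_mem _ ha hb
  | mul a b _ _ ha hb => exact Subalgebra.mul_mem _ ha hb

omit [Algebra k kb] [IsScalarTower k kb N] in
theorem integral_of_le {A : Subalgebra k N} {B : Subalgebra kb N} (h : ∀ z ∈ A, z ∈ B) (f : N)
    (hf : IsIntegral A f) : IsIntegral B f := by
  obtain ⟨P, hP, hPf⟩ := hf
  let ι : A →+* B :=
    { toFun := fun a => ⟨a.1, h a.1 a.2⟩
      map_one' := rfl
      map_zero' := rfl
      map_add' := fun _ _ => rfl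
      map_mul' := fun _ _ => rfl }
  refine ⟨P.map ι, hP.map _, ?_⟩
  rw [eval₂_map]
  exact hPf

theorem integral_up {T T' : N} {c : k} (hc : T' * algebraMap k N c = T) (f : N)
    (hf : IsIntegral (Algebra.adjoin k {T}) f) : IsIntegral (Algebra.adjoin kb {T'}) f :=
  integral_of_le (adjoin_le_up hc) f hf

theorem fix_of_adjoin (S : Finset N)
    (hkk : ∀ (g : G) (c : k), g • algebraMap k N c = algebraMap k N c)
    (hS : ∀ f ∈ S, ∀ g : G, g • f = f) {T : N}
    (hTS : T ∈ Algebra.adjoin k ((S : Set N) ∪ (fun x => x⁻¹) '' S)) (g : G) : g • T = T := by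
  refine fix_adjoin (S : Set N) hkk (fun f hf => hS f hf) T ?_ g
  have h1 : Algebra.adjoin k ((S : Set N) ∪ (fun x => x⁻¹) '' S) ≤
      (IntermediateField.adjoin k (S : Set N)).toSubalgebra := by
    rw [Algebra.adjoin_le_iff]
    rintro x (hx | ⟨y, hy, rfl⟩)
    · exact IntermediateField.subset_adjoin _ _ hx
    · exact IntermediateField.inv_mem _ (IntermediateField.subset_adjoin _ _ hy)
  exact h1 hTS

theorem exists_large_const [CharZero C] (hpC : ‖(p : C)‖ < 1) (R : ℝ) :
    ∃ c : k, c ≠ 0 ∧ R ≤ ‖algebraMap kb C (algebraMap k kb c)‖ := by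
  have hp0 : (p : C) ≠ 0 := Nat.cast_ne_zero.2 (Fact.out : p.Prime).ne_zero
  have h1 : 1 < ‖(p : C)‖⁻¹ := (one_lt_inv₀ (norm_pos_iff.2 hp0)).2 hpC
  obtain ⟨n, hn⟩ := pow_unbounded_of_one_lt R h1
  have hp0' : (p : k) ≠ 0 := by
    intro h
    apply hp0
    rw [← map_natCast ((algebraMap kb C).comp (algebraMap k kb)), h, map_zero]
  refine ⟨((p : k) ^ n)⁻¹, inv_ne_zero (pow_ne_zero _ hp0'), ?_⟩
  rw [map_inv₀, map_inv₀, map_pow, map_pow, map_natCast, map_natCast, norm_inv, norm_pow,
    ← inv_pow]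
  exact hn.le

end alg

section tree

variable {p : ℕ} [Fact p.Prime] {k : Type x} [Field k] [Algebra ℚ_[p] k]
  [FiniteDimensional ℚ_[p] k] {kb : Type v} [Field kb] [Algebra k kb] [IsGalois k kb]
  [IsAlgClosed kb] (C : Type u) [NontriviallyNormedField C] [IsUltrametricDist C]
  [CompleteSpace C] [IsAlgClosed C] [CharZero C] (N : Type w) [Field N] [Algebra kb C]
  [Algebra kb N] [TrdegOne kb N] [Algebra k N] [IsScalarTower k kb N]
  [MulSemiringAction Gal(kb/k) C] [NormAct Gal(kb/k) C] [MulSemiringAction Gal(kb/k) N]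
  [OpenStab Gal(kb/k) N] [Equi Gal(kb/k) kb C] [Equi Gal(kb/k) kb N]

/-- the elements of `S` are constants -/
theorem chars_const (S : Finset N) (hS : ∀ f ∈ S, ∀ g : Gal(kb/k), g • f = f)
    (hall : ∀ f ∈ S, ¬ Transcendental kb f) : ∃ χ : N → Cl p k, PartChar p k S χ := by
  have hconst : ∀ (g : Gal(kb/k)) (a : kb), g • algebraMap kb N a = algebraMap kb N (g a) :=
    fun g a => Equi.smul_algebraMap g a
  refine partChar_of_const S fun f hf => ?_
  have h1 : IsAlgebraic kb f := by
    by_contra h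
    exact hall f hf h
  obtain ⟨a, rfl⟩ := exists_const_of_alg h1
  have h2 : ∀ g : Gal(kb/k), g a = a := by
    intro g
    have h3 := hS _ hf g
    rw [hconst] at h3
    exact (algebraMap kb N).injective h3
  obtain ⟨c, hc⟩ := (InfiniteGalois.mem_range_algebraMap_iff_fixed (k := k) (K := kb) a).2 h2
  exact ⟨c, by rw [IsScalarTower.algebraMap_apply k kb N, hc]⟩

/-- the case of a fixed vertex of the first kind -/
theorem chars_V {ζ : k} (hζ : IsPrimitiveRoot ζ p) (S : Finset N)
    (hS : ∀ f ∈ S, ∀ g : Gal(kb/k), g • f = f) {T : N}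
    (hint : ∀ f ∈ S, IsIntegral (Algebra.adjoin k {T}) f ∧ IsIntegral (Algebra.adjoin k {T}) f⁻¹)
    {c : k} (T' : N) [Fact (Transcendental kb T')] [FixedT Gal(kb/k) T']
    (hT' : T' * algebraMap k N c = T) (v : VT C kb N T') (hv : ∀ g : Gal(kb/k), g • v = v)
    (hpow : UnitPow p v) : ∃ χ : N → Cl p k, PartChar p k S χ :=
  partChar_of_fixed v hv hpow hζ S
    (fun f hf _ => ⟨hS f hf, integral_up hT' f (hint f hf).1, integral_up hT' _ (hint f hf).2⟩)

/-- **Partial characters from the fixed vertices of the tree.** -/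
theorem chars_of (hpC : ‖(p : C)‖ < 1)
    -- (E): a fixed vertex exists
    (hE : ∀ (T : N) [Fact (Transcendental kb T)] [FixedT Gal(kb/k) T],
      (∃ y : VT C kb N T, ∀ g : Gal(kb/k), g • y = y) ∨
      (∃ y : DT C kb N T, ∀ g : Gal(kb/k), g • y = y))
    -- units at the vertices are powers
    (hpow : ∀ (T : N) [Fact (Transcendental kb T)] (v : VT C kb N T), UnitPow p v)
    -- (D): the trace of a fixed disc vertex of large radius
    (hD : ∀ (T : N), Transcendental kb T → (∀ g : Gal(kb/k), g • T = T) → ∀ F : Finset N,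
      ∃ R : ℝ, ∀ c : k, R ≤ ‖algebraMap kb C (algebraMap k kb c)‖ →
        ∀ (T' : N) [Fact (Transcendental kb T')] [FixedT Gal(kb/k) T'],
        T' * algebraMap k N c = T → ∀ d : DT C kb N T', (∀ g : Gal(kb/k), g • d = d) →
        ∃ W : ValuationSubring N, (∀ a : kb, algebraMap kb N a ∈ W) ∧ T ∉ W ∧
          ∀ g : Gal(kb/k), ∀ x ∈ IntermediateField.adjoin kb (F : Set N), x ∈ W → g • x ∈ W)
    {ζ : k} (hζ : IsPrimitiveRoot ζ p) (S : Finset N) (hS : ∀ f ∈ S, ∀ g : Gal(kb/k), g • f = f) :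
    ∃ χ : N → Cl p k, PartChar p k S χ := by
  by_cases hall : ∀ f ∈ S, ¬ Transcendental kb f
  · exact chars_const N S hS hall
  push Not at hall
  obtain ⟨t₀, ht₀S, ht₀⟩ := hall
  obtain ⟨T, hTS, hT, hint⟩ := exists_param (k := k) (kb := kb) (N := N) inferInstance
    (fun T x h => TrdegOne.alg T x h) S ht₀S ht₀
  have hkk : ∀ (g : Gal(kb/k)) (c : k), g • algebraMap k N c = algebraMap k N c := by
    intro g c
    rw [IsScalarTower.algebraMap_apply k kb N, Equi.smul_algebraMap, AlgEquiv.smul_def,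
      g.commutes]
  have hTfix : ∀ g : Gal(kb/k), g • T = T := fix_of_adjoin S hkk hS hTS
  obtain ⟨R, hR⟩ := hD T hT hTfix S
  obtain ⟨c, hc0, hcR⟩ := exists_large_const (k := k) (kb := kb) hpC R
  have hcN : algebraMap k N c ≠ 0 := (_root_.map_ne_zero _).2 hc0
  obtain ⟨T', hT'⟩ : ∃ T' : N, T' = T * (algebraMap k N c)⁻¹ := ⟨_, rfl⟩
  have hT'c : T' * algebraMap k N c = T := by
    rw [hT', inv_mul_cancel_right₀ hcN]
  have hT'tr : Transcendental kb T' := by
    intro h
    apply hT
    rw [← hT'c, IsScalarTower.algebraMap_apply k kb N]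
    exact h.mul (isAlgebraic_algebraMap _)
  have hT'fix : ∀ g : Gal(kb/k), g • T' = T' := by
    intro g
    rw [hT', smul_mul', hTfix, smul_inv'', hkk]
  have hF : Fact (Transcendental kb T') := ⟨hT'tr⟩
  have hX : FixedT Gal(kb/k) T' := ⟨hT'fix⟩
  rcases hE T' with ⟨v, hv⟩ | ⟨d, hd⟩
  · exact chars_V C N hζ S hS hint T' hT'c v hv (hpow T' v)
  · obtain ⟨W, hW, hTW, hst⟩ := hR c hcR T' hT'c d hd
    exact partChar_of_stableOn (fun T x h => TrdegOne.alg T x h) hζ S hS hTS hT
      (fun f hf => (hint f hf).1) hW hTW hst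

end tree

end P025H855
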