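import Vale.Agent.P025.R2.H855.Fix

/-! # Stable places from partial characters -/

open IntermediateField

namespace P025H855

open P025H641 P025H206 P025H16

universe u v w

variable {p : ℕ} [Fact p.Prime] {k : Type u} {K : Type v} [Field k] [Field K] [Algebra k K]
  {s : Gal(constClosure k K/k) →* Gal(maxUnr k K/K)} {G : Subgroup Gal(constClosure k K/k)}
  {k' : Type w} [Field k'] [Algebra k' (maxUnr k K)] [Algebra ℚ_[p] k'] [FiniteDimensional ℚ_[p] k']

/-- **A rational place of the fixed field.** -/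
theorem exists_place_fixG (B : Base s G k') {ζ : k'} (hζ : IsPrimitiveRoot ζ p)
    (h : HasChars p s G k') : ∃ V : ValuationSubring (FixG s G), (∀ c : k', algFix B c ∈ V) ∧
      ∀ f ∈ V, ∃ c : k', V.valuation (f - algFix B c) < 1 := by
  classical
  have hfinC := finite_Cl hζ
  let _ : Algebra k' (FixG s G) := (algFix B).toAlgebra
  have halg : ∀ c : k', ((algebraMap k' (FixG s G) c : FixG s G) : maxUnr k K) =
    algebraMap k' (maxUnr k K) c := fun _ => rfl
  obtain ⟨χ, hχ⟩ := exists_limit (α := FixG s G) (C := Cl p k')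
    (fun S χ => PartChar p k' S χ) (by
    intro S
    obtain ⟨χ, hχ⟩ := h (S.image (fun x : FixG s G => (x : maxUnr k K))) (by
      intro f hf
      obtain ⟨x, -, rfl⟩ := Finset.mem_image.1 hf
      exact (mem_fixG _).1 x.2)
    refine ⟨fun x => χ (x : maxUnr k K), ?_, ?_, ?_⟩
    · intro f hf g hg hf0 hg0
      have h1 := hχ.mul _ (Finset.mem_image_of_mem _ hf) _ (Finset.mem_image_of_mem _ hg)
        (fun h0 => hf0 (Subtype.ext h0)) (fun h0 => hg0 (Subtype.ext h0))
      exact h1
    · intro c hc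
      exact hχ.const c hc
    · intro f hf r A₀ A hA hfS
      obtain ⟨z, hz⟩ := hχ.pat (f : maxUnr k K) (by
        rintro ⟨c, hc⟩
        exact hf ⟨c, Subtype.ext hc⟩) r A₀ A hA (by
        intro a ha
        exact Finset.mem_image_of_mem (fun x : FixG s G => (x : maxUnr k K)) (hfS a ha))
      exact ⟨z, fun a ha => hz a ha⟩)
  -- the limit
  have hmul : ∀ f g, f ≠ 0 → g ≠ 0 → χ (f * g) = χ f + χ g := by
    intro f g hf hg
    obtain ⟨S', χ', hS, h1, hagree⟩ := hχ {f, g, f * g} {f, g}
    rw [← hagree f (by simp), ← hagree g (by simp), ← hagree (f * g) (by simp)]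
    exact h1.mul f (hS (by simp)) g (hS (by simp)) hf hg
  have hconst : ∀ c : k', c ≠ 0 → χ (algebraMap k' (FixG s G) c) = clsm p c := by
    intro c hc
    obtain ⟨S', χ', hS, h1, hagree⟩ := hχ {algebraMap k' (FixG s G) c} ∅
    rw [← hagree _ (by simp)]
    exact h1.const c hc
  have hpat : ∀ f, f ∉ Set.range (algebraMap k' (FixG s G)) → ∀ A₀ : Finset k', ∃ z,
      ∀ a ∈ A₀, z ≠ a ∧ χ (f - algebraMap k' (FixG s G) a) = clsm p (z - a) := by
    intro f hf A₀
    obtain ⟨r, A, hA⟩ := exists_fine (p := p) A₀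
    obtain ⟨S', χ', hS, h1, hagree⟩ :=
      hχ (A₀.image (fun a => f - algebraMap k' (FixG s G) a))
        (A.image (fun a => f - algebraMap k' (FixG s G) a))
    obtain ⟨z, hz⟩ := h1.pat f hf r A₀ A hA (fun a ha => hS (Finset.mem_image_of_mem _ ha))
    refine ⟨z, fun a ha => ⟨(hz a ha).1, ?_⟩⟩
    rw [← hagree _ (Finset.mem_image_of_mem _ ha)]
    exact (hz a ha).2
  obtain ⟨V, hVk, hVres, -⟩ := place_of_chi hζ χ hmul hconst hpat
  exact ⟨V, hVk, hVres⟩

/-- **A stable place of the maximal unramified extension.** -/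
theorem exists_stable_of_chars [CharZero k] [Algebra k k'] [IsScalarTower k k' (maxUnr k K)]
    (hK : IsFunctionField k K) (hs : IsSection k K s) (B : Base s G k') {ζ : k'}
    (hζ : IsPrimitiveRoot ζ p) (h : HasChars p s G k') :
    ∃ W : ValuationSubring (maxUnr k K), (∀ c : k, algebraMap k (maxUnr k K) c ∈ W) ∧ W ≠ ⊤ ∧
      ∀ σ ∈ G, ∀ x ∈ W, s σ x ∈ W := by
  obtain ⟨V, hVk, hVres⟩ := exists_place_fixG B hζ h
  obtain ⟨W, hW, hst⟩ := exists_stable_valG hs B V hVk hVres
  refine ⟨W, ?_, ?_, hst⟩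
  · intro c
    have h1 := hVk (algebraMap k k' c)
    rw [← hW, ValuationSubring.mem_comap] at h1
    rw [IsScalarTower.algebraMap_apply k k' (maxUnr k K)]
    exact h1
  · rintro rfl
    obtain ⟨t, ht, -⟩ := hK
    have hVtop : V = ⊤ := by
      rw [← hW]
      ext x
      simp [ValuationSubring.mem_comap]
    subst hVtop
    obtain ⟨z, hz⟩ := hVres (algebraMap K (FixG s G) t) (ValuationSubring.mem_top _)
    have h0 : algebraMap K (FixG s G) t - algFix B z ≠ 0 := by
      intro h0
      rw [sub_eq_zero] at h0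
      have h1 := congrArg (fun x : FixG s G => (x : maxUnr k K)) h0
      have h2 : IsIntegral k (algebraMap K (maxUnr k K) t) := by
        have h3 : algebraMap K (maxUnr k K) t = algebraMap k' (maxUnr k K) z := h1
        rw [h3]
        exact B.alg z
      have h3 : IsIntegral k t := (isIntegral_algHom_iff
        ((Algebra.ofId K (maxUnr k K)).restrictScalars k)
        (algebraMap K (maxUnr k K)).injective).1 h2
      exact ht h3.isAlgebraic
    have h1 : (⊤ : ValuationSubring (FixG s G)).valuation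
        (algebraMap K (FixG s G) t - algFix B z)⁻¹ ≤ 1 :=
      ((⊤ : ValuationSubring (FixG s G)).valuation_le_one_iff _).2 (ValuationSubring.mem_top _)
    have h2 : (⊤ : ValuationSubring (FixG s G)).valuation
        (algebraMap K (FixG s G) t - algFix B z) *
        (⊤ : ValuationSubring (FixG s G)).valuation
        (algebraMap K (FixG s G) t - algFix B z)⁻¹ = 1 := by
      rw [← map_mul, mul_inv_cancel₀ h0, map_one]
    exact absurd h2 (mul_lt_one_of_lt_of_le hz h1).ne

end P025H855
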