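import Vale.Agent.P025.R2.H855.Final1

/-! # Sections stabilizing a place: the image is the decomposition group -/

open IntermediateField

namespace P025H855

open P025H641 P025H206 P025H16

universe u v w

section defs

variable {k : Type u} {K : Type v} [Field k] [Field K] [Algebra k K]

/-- the section `s` is the section of the place `W` of the maximal unramified extension: its image
is the decomposition group of `W`, the group of all automorphisms `g` over `K` that map the
valuation ring `W` into itself -/
def IsSectionOf (s : Section k K) (W : ValuationSubring (maxUnr k K)) : Prop :=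
  ∀ g : GalOf (maxUnr k K), (∃ σ, s.hom σ = g) ↔
    ∀ x y : maxUnr k K, g.Maps x y → x ∈ W → y ∈ W

end defs

variable {k : Type u} {K : Type v} [Field k] [CharZero k] [Field K] [Algebra k K]

omit [CharZero k] in
lemma IsSectionOf.stabilizes {s : Section k K} {W : ValuationSubring (maxUnr k K)}
    (h : IsSectionOf s W) : Stabilizes s W :=
  fun σ x y hxy hx => (h (s.hom σ)).1 ⟨σ, rfl⟩ x y hxy hx

/-- a section that stabilizes a place over a rational place is the section of this place -/
theorem isSectionOf_of_stabilizes (hK : IsFunctionField k K) {s : Section k K}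
    {W : ValuationSubring (maxUnr k K)}
    (hW : IsRatPlace k K (W.comap (algebraMap K (maxUnr k K)))) (h : Stabilizes s W) :
    IsSectionOf s W := by
  have h' := (stabilizes_iff s W).1 h
  intro g
  constructor
  · rintro ⟨σ, rfl⟩ x y hxy hx
    exact h σ x y hxy hx
  · intro hg
    let g' : Gal(maxUnr k K/K) := g
    have hg' : ∀ x ∈ W, g' x ∈ W := fun x hx => hg x (g' x) ⟨x, rfl, rfl⟩ hx
    obtain ⟨γ, hγ⟩ := exists_onConst g'
    refine ⟨γ, ?_⟩
    have hinv' : ∀ (h : Gal(maxUnr k K/K)) z, h⁻¹ (h z) = z := by
      intro h z
      rw [← AlgEquiv.mul_apply, inv_mul_cancel]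
      rfl
    have hinv : ∀ (h : Gal(maxUnr k K/K)) z, h (h⁻¹ z) = z := by
      intro h z
      rw [← AlgEquiv.mul_apply, mul_inv_cancel]
      rfl
    have h1 : (s.toHom γ)⁻¹ * g' = 1 := by
      refine inertia_trivial W hK hW _ ?_ ?_
      · intro x hx
        rw [AlgEquiv.mul_apply, ← map_inv]
        exact h' γ⁻¹ _ (hg' x hx)
      · intro x hx
        rw [AlgEquiv.mul_apply]
        apply (s.toHom γ).injective
        rw [hinv]
        apply Subtype.ext
        have hc : (x : AlgebraicClosure K) ∈ constClosure k K :=
          mem_algebraicClosure_iff.2 (isIntegral_coe.2 hx).isAlgebraic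
        rw [hγ ⟨x, hc⟩ x rfl]
        exact s.isSection.lifts γ ⟨x, hc⟩ x rfl
    have h2 : g' = s.toHom γ := by
      have h3 := congrArg (fun z => s.toHom γ * z) h1
      simpa using h3
    exact h2.symm

/-- the two descriptions of the section attached to a rational place agree -/
theorem exists_isSectionOf_iff (hK : IsFunctionField k K) (s : Section k K)
    {V : ValuationSubring K} (hV : IsRatPlace k K V) :
    (∃ W : ValuationSubring (maxUnr k K), W.comap (algebraMap K (maxUnr k K)) = V ∧
      Stabilizes s W) ↔
    ∃ W : ValuationSubring (maxUnr k K), W.comap (algebraMap K (maxUnr k K)) = V ∧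
      IsSectionOf s W := by
  constructor
  · rintro ⟨W, hW, h⟩
    exact ⟨W, hW, isSectionOf_of_stabilizes hK (by rw [hW]; exact hV) h⟩
  · rintro ⟨W, hW, h⟩
    exact ⟨W, hW, h.stabilizes⟩

end P025H855
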