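import Vale.Agent.P025.R2.H855.Defs

/-! # The fixed field of a subgroup, stable extensions of rational places of it -/

open IntermediateField

namespace P025H855

open P025H641 P025H206 P025H16

universe u v w

variable {k : Type u} {K : Type v} [Field k] [Field K] [Algebra k K]
  {s : Gal(constClosure k K/k) →* Gal(maxUnr k K/K)} {G : Subgroup Gal(constClosure k K/k)}
  {k' : Type w} [Field k'] [Algebra k' (maxUnr k K)]

/-- the fixed field of `s(G)` -/
noncomputable def FixG (s : Gal(constClosure k K/k) →* Gal(maxUnr k K/K))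
    (G : Subgroup Gal(constClosure k K/k)) : IntermediateField K (maxUnr k K) :=
  IntermediateField.fixedField (G.map s)

lemma mem_fixG (x : maxUnr k K) : x ∈ FixG s G ↔ ∀ σ ∈ G, s σ x = x := by
  rw [FixG, IntermediateField.mem_fixedField_iff]
  constructor
  · exact fun h σ hσ => h _ ⟨σ, hσ, rfl⟩
  · rintro h _ ⟨σ, hσ, rfl⟩
    exact h σ hσ

/-- the constants in the fixed field -/
noncomputable def algFix (B : Base s G k') : k' →+* FixG s G :=
  (algebraMap k' (maxUnr k K)).codRestrict (FixG s G).toSubfield.toSubring
    (fun c => (mem_fixG _).2 (fun σ hσ => B.fix c σ hσ))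

lemma algFix_coe (B : Base s G k') (c : k') :
    ((algFix B c : FixG s G) : maxUnr k K) = algebraMap k' (maxUnr k K) c := rfl

variable [CharZero k]

/-- the maximal unramified extension is generated by constants over the fixed field -/
lemma adjoin_const_eq_topG (hs : IsSection k K s)
    (hG : IsClosed (G : Set Gal(constClosure k K/k))) :
    IntermediateField.adjoin (FixG s G) {x : maxUnr k K | IsIntegral k x} = ⊤ := by
  have hcharK : CharZero K := charZero_of_injective_algebraMap (algebraMap k K).injective
  -- the image is closed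
  have hcl : IsClosed ((G.map s : Subgroup Gal(maxUnr k K/K)) : Set Gal(maxUnr k K/K)) := by
    rw [Subgroup.coe_map]
    exact (hG.isCompact.image hs.continuous).isClosed
  set L : IntermediateField K (maxUnr k K) :=
    (IntermediateField.adjoin (FixG s G) {x : maxUnr k K | IsIntegral k x}).restrictScalars K
    with hL
  have hfix : L.fixingSubgroup = ⊥ := by
    rw [eq_bot_iff]
    intro g hg
    rw [IntermediateField.mem_fixingSubgroup_iff] at hg
    have h1 := InfiniteGalois.fixingSubgroup_fixedField (⟨G.map s, hcl⟩ : ClosedSubgroup _)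
    have h2 : g ∈ (IntermediateField.fixedField (G.map s)).fixingSubgroup := by
      rw [IntermediateField.mem_fixingSubgroup_iff]
      intro x hx
      exact hg x (IntermediateField.algebraMap_mem
        (IntermediateField.adjoin (FixG s G) {x : maxUnr k K | IsIntegral k x})
        (⟨x, hx⟩ : FixG s G))
    have h3 : (IntermediateField.fixedField (G.map s)).fixingSubgroup = G.map s := h1
    rw [h3] at h2
    obtain ⟨σ, -, rfl⟩ := h2
    have h4 : σ = 1 := by
      ext x
      have hxint : IsIntegral k (x : AlgebraicClosure K) :=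
        (mem_algebraicClosure_iff.1 x.2).isIntegral
      have h5 := hs.lifts σ x ⟨x, mem_maxUnr_of_const _ hxint⟩ rfl
      rw [hg _ (IntermediateField.subset_adjoin (FixG s G) _ (isIntegral_coe.1 hxint))] at h5
      exact h5
    rw [h4, map_one]
    exact Subgroup.mem_bot.2 rfl
  have h1 := InfiniteGalois.fixedField_fixingSubgroup L
  rw [hfix, IntermediateField.fixedField_bot] at h1
  rw [eq_top_iff]
  intro x _
  have h2 : x ∈ L := by rw [← h1]; trivial
  exact h2

/-- representation by independent constants -/
lemma exists_const_basisG (hs : IsSection k K s) (B : Base s G k') :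
    ∃ (I : Type v) (c : I → maxUnr k K),
    (∀ i, IsIntegral k (c i)) ∧ LinearIndependent k' c ∧
      ∀ x : maxUnr k K, ∃ l : I →₀ FixG s G,
        x = ∑ i ∈ l.support, algebraMap (FixG s G) (maxUnr k K) (l i) * c i := by
  classical
  let C₀ : Submodule k' (maxUnr k K) :=
    { carrier := {x | IsIntegral k x}
      add_mem' := fun ha hb => IsIntegral.add ha hb
      zero_mem' := isIntegral_zero
      smul_mem' := fun a x hx => by
        rw [Algebra.smul_def]
        exact IsIntegral.mul (B.alg a) hx }
  let b := Module.Basis.ofVectorSpace k' C₀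
  let c : Module.Basis.ofVectorSpaceIndex k' C₀ → maxUnr k K := fun i => (b i : maxUnr k K)
  have hcint : ∀ i, IsIntegral k (c i) := fun i => (b i).2
  have hli : LinearIndependent k' c :=
    b.linearIndependent.map' C₀.subtype (LinearMap.ker_eq_bot.2 Subtype.val_injective)
  refine ⟨_, c, hcint, hli, ?_⟩
  -- constants are combinations of the `c i`
  have hspan : ∀ y : maxUnr k K, IsIntegral k y →
      y ∈ Submodule.span (FixG s G) (Set.range c) := by
    intro y hy
    have h2 : y = ∑ i ∈ (b.repr ⟨y, hy⟩).support, (b.repr ⟨y, hy⟩ i) • c i := by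
      have h3 := b.linearCombination_repr ⟨y, hy⟩
      rw [Finsupp.linearCombination_apply, Finsupp.sum] at h3
      have h4 := congrArg C₀.subtype h3
      rw [map_sum] at h4
      exact h4.symm
    rw [h2]
    refine Submodule.sum_mem _ (fun i _ => ?_)
    have h3 : (b.repr ⟨y, hy⟩ i) • c i = (algFix B (b.repr ⟨y, hy⟩ i)) • c i := by
      rw [Algebra.smul_def, Algebra.smul_def]
      rfl
    rw [h3]
    exact Submodule.smul_mem _ _ (Submodule.subset_span ⟨i, rfl⟩)
  intro x
  have htower : IsScalarTower k (FixG s G) (maxUnr k K) :=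
    IsScalarTower.of_algebraMap_eq (fun _ => rfl)
  have hx : x ∈ IntermediateField.adjoin (FixG s G) {x : maxUnr k K | IsIntegral k x} := by
    rw [adjoin_const_eq_topG hs B.closed]; trivial
  have hx2 : x ∈ Algebra.adjoin (FixG s G) {x : maxUnr k K | IsIntegral k x} := by
    rw [← IntermediateField.adjoin_toSubalgebra_of_isAlgebraic]
    · exact hx
    · intro y hy
      have hy' : IsIntegral k y := hy
      exact hy'.isAlgebraic.tower_top (FixG s G)
  have hx3 : x ∈ Submodule.span (FixG s G) {x : maxUnr k K | IsIntegral k x} := by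
    have h1 : x ∈ Subalgebra.toSubmodule
        (Algebra.adjoin (FixG s G) {x : maxUnr k K | IsIntegral k x}) := hx2
    rw [Algebra.adjoin_eq_span] at h1
    have h2 : (Submonoid.closure {x : maxUnr k K | IsIntegral k x} : Set (maxUnr k K)) ⊆
        {x : maxUnr k K | IsIntegral k x} := by
      let T : Submonoid (maxUnr k K) :=
        { carrier := {x : maxUnr k K | IsIntegral k x}
          mul_mem' := fun ha hb => IsIntegral.mul ha hb
          one_mem' := isIntegral_one }
      have h3 : Submonoid.closure {x : maxUnr k K | IsIntegral k x} ≤ T :=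
        Submonoid.closure_le.2 (fun y hy => hy)
      exact h3
    exact Submodule.span_mono h2 h1
  have hx4 : x ∈ Submodule.span (FixG s G) (Set.range c) :=
    Submodule.span_le.2 (fun y hy => hspan y hy) hx3
  rw [Finsupp.mem_span_range_iff_exists_finsupp] at hx4
  obtain ⟨l, hl⟩ := hx4
  refine ⟨l, ?_⟩
  rw [← hl, Finsupp.sum]
  refine Finset.sum_congr rfl (fun i _ => ?_)
  rw [Algebra.smul_def]

/-- **Stable extension of rational valuation rings of the fixed field.** -/
theorem exists_stable_valG [Algebra k k'] [IsScalarTower k k' (maxUnr k K)]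
    (hs : IsSection k K s) (B : Base s G k') (V : ValuationSubring (FixG s G))
    (hVk : ∀ c : k', algFix B c ∈ V)
    (hres : ∀ f ∈ V, ∃ c : k', V.valuation (f - algFix B c) < 1) :
    ∃ W : ValuationSubring (maxUnr k K), W.comap (algebraMap (FixG s G) (maxUnr k K)) = V ∧
      ∀ σ ∈ G, ∀ x ∈ W, s σ x ∈ W := by
  let _ : Algebra k' (FixG s G) := (algFix B).toAlgebra
  have htower : IsScalarTower k' (FixG s G) (maxUnr k K) :=
    IsScalarTower.of_algebraMap_eq (fun _ => rfl)
  obtain ⟨W, hW⟩ := exists_val_extension (L := maxUnr k K) V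
  refine ⟨W, hW, ?_⟩
  have hWk : ∀ c : k', algebraMap k' (maxUnr k K) c ∈ W := by
    intro c
    have h1 := hVk c
    rw [← hW, ValuationSubring.mem_comap] at h1
    exact h1
  have hWres : ∀ f : FixG s G, algebraMap (FixG s G) (maxUnr k K) f ∈ W → ∃ c : k',
      W.valuation (algebraMap (FixG s G) (maxUnr k K) f - algebraMap k' (maxUnr k K) c) < 1 := by
    intro f hf
    have h1 : f ∈ V := by rw [← hW, ValuationSubring.mem_comap]; exact hf
    obtain ⟨c, hc⟩ := hres f h1
    refine ⟨c, ?_⟩
    rw [← hW, (comap_isEquiv (F := FixG s G) W).lt_one_iff_lt_one, Valuation.comap_apply,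
      map_sub] at hc
    exact hc
  obtain ⟨I, c, hcint, hli, hrep⟩ := exists_const_basisG hs B
  have hcint' : ∀ i, IsIntegral k' (c i) := fun i => (hcint i).tower_top
  intro σ hσ x hx
  obtain ⟨l, hl⟩ := hrep x
  rw [hl, gauss_mem hWk hWres _ c hcint' hli] at hx
  let φ : maxUnr k K →ₐ[k] maxUnr k K :=
    ((s σ : (maxUnr k K) ≃ₐ[K] (maxUnr k K)) : (maxUnr k K) →ₐ[K] (maxUnr k K)).restrictScalars k
  let φ' : maxUnr k K →ₗ[k'] maxUnr k K :=
    { toFun := fun x => s σ x
      map_add' := fun x y => map_add _ _ _
      map_smul' := fun a x => by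
        rw [Algebra.smul_def, map_mul, B.fix a σ hσ, RingHom.id_apply, Algebra.smul_def] }
  have h1 : s σ x = ∑ i ∈ l.support, algebraMap (FixG s G) (maxUnr k K) (l i) * s σ (c i) := by
    conv_lhs => rw [hl]
    rw [map_sum]
    refine Finset.sum_congr rfl (fun i _ => ?_)
    rw [map_mul]
    congr 1
    exact (mem_fixG _).1 (l i).2 σ hσ
  rw [h1, gauss_mem hWk hWres _ (fun i => s σ (c i)) (fun i => ((hcint i).map φ).tower_top)]
  · exact hx
  · exact hli.map' φ' (LinearMap.ker_eq_bot.2 (s σ).injective)

end P025H855
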