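import Vale.Agent.P025.R2.H816.J03
import Vale.Agent.P025.R2.H855.Stmt

/-! # The genus of the final statement and the genus of the function field library -/

open IntermediateField

namespace P025H855

open P025H641 Vale.Agent.P019P

universe u v w

section compare

variable {F : Type u} {L : Type v} [Field F] [Field L] [Algebra F L] [CFF F L]

lemma val_lt_one_iff (P : Plk F L) (x : L) : P.1.valuation x < 1 ↔ x = 0 ∨ 0 < ord P x := by
  by_cases hx : x = 0
  · simp [hx]
  have h1 : P.1.valuation x < 1 ↔ x⁻¹ ∉ P.1 := by
    rw [← P.1.valuation_le_one_iff, map_inv₀, not_le]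
    exact (one_lt_inv₀ (zero_lt_iff.2 ((map_ne_zero _).2 hx))).symm
  rw [h1, mem_iff_ord, ord_inv]
  simp only [inv_eq_zero, hx, false_or]
  omega

lemma val_le_iff (P : Plk F L) {x y : L} (hx : x ≠ 0) (hy : y ≠ 0) :
    P.1.valuation x ≤ P.1.valuation y ↔ ord P y ≤ ord P x := by
  have hy' : 0 < P.1.valuation y := zero_lt_iff.2 ((map_ne_zero _).2 hy)
  rw [← div_le_one₀ hy', ← map_div₀, P.1.valuation_le_one_iff, mem_iff_ord, div_eq_mul_inv,
    ord_mul P hx (inv_ne_zero hy), ord_inv]
  have h0 : x * y⁻¹ ≠ 0 := mul_ne_zero hx (inv_ne_zero hy)
  simp only [h0, false_or]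
  omega

lemma isUnif_iff (P : Plk F L) (π : L) : IsUnif P.1 π ↔ ord P π = 1 := by
  obtain ⟨π₀, hπ₀⟩ := (ord_spec P).one
  have hπ₀0 : π₀ ≠ 0 := by
    rintro rfl
    rw [ord_zero] at hπ₀
    exact absurd hπ₀ (by norm_num)
  constructor
  · rintro ⟨h1, h2⟩
    have h3 := h2 π₀ ((val_lt_one_iff P π₀).2 (Or.inr (by omega)))
    have hπ0 : π ≠ 0 := by
      rintro rfl
      rw [map_zero, le_zero_iff, map_eq_zero] at h3
      exact hπ₀0 h3
    rw [val_le_iff P hπ₀0 hπ0] at h3
    rcases (val_lt_one_iff P π).1 h1 with h4 | h4
    · exact absurd h4 hπ0
    · omega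
  · intro h
    have hπ0 : π ≠ 0 := by
      rintro rfl
      rw [ord_zero] at h
      exact absurd h (by norm_num)
    refine ⟨(val_lt_one_iff P π).2 (Or.inr (by omega)), fun x hx => ?_⟩
    by_cases hx0 : x = 0
    · rw [hx0, map_zero]; exact zero_le
    rw [val_le_iff P hx0 hπ0]
    rcases (val_lt_one_iff P x).1 hx with h4 | h4
    · exact absurd h4 hx0
    · omega

lemma rrSpace_eq (D : Plk F L →₀ ℤ) : RRSpace (F := F) (L := L) D = LL F D := by
  ext f
  rw [mem_LL]
  constructor
  · intro h
    by_cases hf : f = 0
    · exact Or.inl hf
    right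
    intro P
    obtain ⟨π, hπ⟩ := (ord_spec P).one
    have hπ0 : π ≠ 0 := by
      rintro rfl
      rw [ord_zero] at hπ
      exact absurd hπ (by norm_num)
    have h1 : π ^ D P * f ∈ P.1 := h P π ((isUnif_iff P π).2 hπ)
    have h2 : π ^ D P ≠ 0 := zpow_ne_zero _ hπ0
    rw [mem_iff_ord, ord_mul P h2 hf, ord_zpow, hπ] at h1
    rcases h1 with h1 | h1
    · exact absurd h1 (mul_ne_zero h2 hf)
    · omega
  · intro h
    suffices key : ∀ (P : Plk F L) (π : L), IsUnif P.1 π → π ^ D P * f ∈ P.1 from key
    intro P π hπ
    have hπ1 := (isUnif_iff P π).1 hπ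
    have hπ0 : π ≠ 0 := by
      rintro rfl
      rw [ord_zero] at hπ1
      exact absurd hπ1 (by norm_num)
    have h2 : π ^ D P ≠ 0 := zpow_ne_zero _ hπ0
    rcases h with rfl | h
    · rw [mul_zero]; exact P.1.zero_mem
    by_cases hf : f = 0
    · rw [hf, mul_zero]; exact P.1.zero_mem
    rw [mem_iff_ord, ord_mul P h2 hf, ord_zpow, hπ1]
    right
    have h3 := h P
    omega

/-- the genus of the final statement is at most the genus of the library -/
lemma genus_le_gen : genus F L ≤ gen F L := by
  have key : ∀ D : Plk F L →₀ ℤ,
      (degD (F := F) (L := L) D + 1 - Module.finrank F (RRSpace (F := F) (L := L) D)).toNat ≤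
        gen F L := by
    intro D
    have h1 := RR (k := F) (F := L) D
    have h2 : degD (F := F) (L := L) D = dg D := rfl
    rw [h2, rrSpace_eq, Int.toNat_le]
    have h5 : (0 : ℤ) ≤ Module.finrank F (LL F (can F L - D)) := Int.natCast_nonneg _
    linarith
  rw [genus]
  refine iSup_le (fun D => ?_)
  have h3 := key D
  exact_mod_cast h3

end compare

section geom

variable {k : Type u} {K : Type v} [Field k] [Field K] [Algebra k K]

/-- the elements of `K` in `K k̄` -/
noncomputable def toGeom (k : Type u) (K : Type v) [Field k] [Field K] [Algebra k K] :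
    K →+* geomField k K :=
  (algebraMap K (AlgebraicClosure K)).codRestrict (geomField k K).toSubfield.toSubring
    (fun x => IntermediateField.subset_adjoin _ _ ⟨x, rfl⟩)

lemma toGeom_coe (x : K) :
    ((toGeom k K x : geomField k K) : AlgebraicClosure K) = algebraMap K (AlgebraicClosure K) x :=
  rfl

/-- `K k̄` is a function field over `k̄` -/
theorem cff_geomField (hK : IsFunctionField k K) : CFF (constClosure k K) (geomField k K) := by
  classical
  obtain ⟨t, ht, hfin⟩ := hK
  refine ⟨(inferInstance : IsAlgClosure k (constClosure k K)).isAlgClosed, toGeom k K t, ?_, ?_⟩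
  · intro halg
    apply ht
    have h1 : IsAlgebraic (constClosure k K) (algebraMap K (AlgebraicClosure K) t) :=
      halg.algHom (geomField k K).val
    have h2 : IsAlgebraic k (algebraMap K (AlgebraicClosure K) t) := by
      have : Algebra.IsAlgebraic k (constClosure k K) := inferInstance
      exact h1.restrictScalars k
    exact (isAlgebraic_algebraMap_iff (algebraMap K (AlgebraicClosure K)).injective).1 h2
  · set M := (constClosure k K)⟮toGeom k K t⟯ with hM
    let b := Module.finBasis k⟮t⟯ K
    let T : Finset (geomField k K) := Finset.univ.image (fun i => toGeom k K (b i))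
    -- the field generated by the basis
    set A : IntermediateField M (geomField k K) := IntermediateField.adjoin M (T : Set _) with hA
    have hconstA : ∀ c : constClosure k K, algebraMap _ (geomField k K) c ∈ A := fun c =>
      A.algebraMap_mem (algebraMap (constClosure k K) M c)
    -- elements of `K` whose image lies in `A`
    let B : IntermediateField k K :=
      { carrier := {x | toGeom k K x ∈ A}
        mul_mem' := fun {a b} ha hb => by
          change toGeom k K (a * b) ∈ A
          rw [map_mul]; exact A.mul_mem ha hb
        add_mem' := fun {a b} ha hb => by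
          change toGeom k K (a + b) ∈ A
          rw [map_add]; exact A.add_mem ha hb
        algebraMap_mem' := fun c => by
          change toGeom k K (algebraMap k K c) ∈ A
          have h1 : toGeom k K (algebraMap k K c) =
            algebraMap (constClosure k K) (geomField k K) (algebraMap k (constClosure k K) c) := by
            apply Subtype.ext
            exact (IsScalarTower.algebraMap_apply k K (AlgebraicClosure K) c).symm
          rw [h1]
          exact hconstA _
        inv_mem' := fun a ha => by
          change toGeom k K a⁻¹ ∈ A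
          rw [map_inv₀]; exact A.inv_mem ha }
    have htB : t ∈ B := by
      change toGeom k K t ∈ A
      exact A.algebraMap_mem (⟨toGeom k K t, mem_adjoin_simple_self _ _⟩ : M)
    have hle : k⟮t⟯ ≤ B := adjoin_simple_le_iff.2 htB
    have hallB : ∀ x : K, x ∈ B := by
      intro x
      rw [← b.sum_repr x]
      refine sum_mem (fun i _ => ?_)
      rw [Algebra.smul_def]
      refine B.mul_mem (hle (b.repr x i).2) ?_
      change toGeom k K (b i) ∈ A
      exact IntermediateField.subset_adjoin _ _
        (Finset.mem_coe.2 (Finset.mem_image_of_mem _ (Finset.mem_univ i)))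
    have hAtop : A = ⊤ := by
      rw [eq_top_iff]
      intro x _
      have key : ∀ y (hy : y ∈ IntermediateField.adjoin (constClosure k K)
          (Set.range (algebraMap K (AlgebraicClosure K)))), (⟨y, hy⟩ : geomField k K) ∈ A := by
        intro y hy
        induction hy using IntermediateField.adjoin_induction with
        | mem y hy =>
          obtain ⟨z, rfl⟩ := hy
          exact hallB z
        | algebraMap c => exact hconstA c
        | add y z hy hz h1 h2 => exact A.add_mem h1 h2
        | inv y hy h1 => exact A.inv_mem h1
        | mul y z hy hz h1 h2 => exact A.mul_mem h1 h2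
      exact key x.1 x.2
    -- finiteness
    have hint : ∀ x ∈ (T : Set (geomField k K)), IsIntegral M x := by
      intro x hx
      obtain ⟨i, -, rfl⟩ := Finset.mem_image.1 (Finset.mem_coe.1 hx)
      have h1 : IsIntegral k⟮t⟯ (b i) := Algebra.IsIntegral.isIntegral _
      -- `k(t)` maps to `M`
      have h2 : ∀ z ∈ k⟮t⟯, toGeom k K z ∈ M := by
        intro z hz
        induction hz using IntermediateField.adjoin_induction with
        | mem y hy =>
          rw [Set.mem_singleton_iff] at hy
          rw [hy]
          exact mem_adjoin_simple_self _ _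
        | algebraMap c =>
          have h1 : toGeom k K (algebraMap k K c) =
            algebraMap (constClosure k K) (geomField k K) (algebraMap k (constClosure k K) c) := by
            apply Subtype.ext
            exact (IsScalarTower.algebraMap_apply k K (AlgebraicClosure K) c).symm
          rw [h1]
          exact M.algebraMap_mem _
        | add y z _ _ h1 h2 => rw [map_add]; exact M.add_mem h1 h2
        | inv y _ h1 => rw [map_inv₀]; exact M.inv_mem h1
        | mul y z _ _ h1 h2 => rw [map_mul]; exact M.mul_mem h1 h2
      let φ : k⟮t⟯ →+* M := ((toGeom k K).comp (algebraMap k⟮t⟯ K)).codRestrict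
        M.toSubfield.toSubring (fun z => h2 z z.2)
      exact IsIntegral.map_of_comp_eq φ (toGeom k K) (RingHom.ext (fun z => rfl)) h1
    have hfinA : FiniteDimensional M A := by
      rw [hA]
      have := T.finite_toSet
      exact IntermediateField.finiteDimensional_adjoin hint
    rw [hAtop] at hfinA
    exact LinearEquiv.finiteDimensional
      (IntermediateField.topEquiv (F := M) (E := geomField k K)).toLinearEquiv

/-- the input for the library: `K k̄` is a function field of genus at least two -/
theorem two_le_gen (h : IsHyperbolic k K) :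
    have := cff_geomField h.funField
    2 ≤ gen (constClosure k K) (geomField k K) := by
  have := cff_geomField h.funField
  have h1 := h.genus.trans (genus_le_gen (F := constClosure k K) (L := geomField k K))
  exact_mod_cast h1

end geom

end P025H855
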