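import Vale.Agent.P025.R2.H855.Defs

/-! # Finite extensions of the constants as subfields of the algebraic closure -/

open IntermediateField

namespace P025H855

open P025H641 P025H206 P025H16

universe u v w

variable {k : Type u} {K : Type v} [Field k] [CharZero k] [Field K] [Algebra k K]
  (k' : Type w) [Field k'] [Algebra k k'] [Algebra.IsAlgebraic k k'] [Algebra k' (maxUnr k K)]
  [IsScalarTower k k' (maxUnr k K)]

lemma isIntegral_alg (c : k') :
    IsIntegral k (((algebraMap k' (maxUnr k K) c : maxUnr k K) : AlgebraicClosure K)) := by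
  have h : IsIntegral k c := (Algebra.IsAlgebraic.isAlgebraic c).isIntegral
  exact isIntegral_coe.2 h.algebraMap

/-- the embedding of `k'` in the algebraic closure of `k` -/
noncomputable def toKb : k' →+* constClosure k K :=
  ((algebraMap (maxUnr k K) (AlgebraicClosure K)).comp (algebraMap k' (maxUnr k K))).codRestrict
    (constClosure k K).toSubfield.toSubring
    (fun c => mem_algebraicClosure_iff.2 (isIntegral_alg (k := k) (K := K) k' c).isAlgebraic)

lemma toKb_coe (c : k') : ((toKb (k := k) (K := K) k' c : constClosure k K) : AlgebraicClosure K) =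
    ((algebraMap k' (maxUnr k K) c : maxUnr k K) : AlgebraicClosure K) := rfl

/-- `k'` acts on the algebraic closure of `k` -/
@[reducible] noncomputable def algKb : Algebra k' (constClosure k K) := (toKb k').toAlgebra

lemma tower_kb : letI := algKb (k := k) (K := K) k'; IsScalarTower k k' (constClosure k K) := by
  let _ := algKb (k := k) (K := K) k'
  refine IsScalarTower.of_algebraMap_eq (fun c => Subtype.ext ?_)
  have h1 : ((algebraMap k' (constClosure k K) (algebraMap k k' c) : constClosure k K) :
      AlgebraicClosure K) = ((algebraMap k' (maxUnr k K) (algebraMap k k' c) : maxUnr k K) :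
      AlgebraicClosure K) := rfl
  rw [h1, ← IsScalarTower.algebraMap_apply]
  rfl

lemma isGalois_kb : letI := algKb (k := k) (K := K) k'; IsGalois k' (constClosure k K) := by
  let _ := algKb (k := k) (K := K) k'
  have := tower_kb (k := k) (K := K) k'
  exact IsGalois.tower_top_of_isGalois k k' (constClosure k K)

/-- restriction of scalars of automorphisms -/
noncomputable def resHom : letI := algKb (k := k) (K := K) k';
    (constClosure k K ≃ₐ[k'] constClosure k K) →* Gal(constClosure k K/k) :=
  letI := algKb (k := k) (K := K) k'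
  haveI := tower_kb (k := k) (K := K) k'
  { toFun := fun g => g.restrictScalars k
    map_one' := rfl
    map_mul' := fun _ _ => rfl }

lemma resHom_apply : letI := algKb (k := k) (K := K) k';
    ∀ (g : constClosure k K ≃ₐ[k'] constClosure k K) (x : constClosure k K),
      resHom (k := k) (K := K) k' g x = g x := fun _ _ => rfl

lemma resHom_injective : letI := algKb (k := k) (K := K) k';
    Function.Injective (resHom (k := k) (K := K) k') := by
  let _ := algKb (k := k) (K := K) k'
  intro g h hgh
  refine AlgEquiv.ext (fun x => ?_)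
  exact congrArg (fun f : Gal(constClosure k K/k) => f x) hgh

variable {k'} {s : Gal(constClosure k K/k) →* Gal(maxUnr k K/K)}

/-- the subgroup fixing `k'` consists of the automorphisms over `k'` -/
lemma mem_fixC_iff (hs : IsSection k K s) (σ : Gal(constClosure k K/k)) :
    σ ∈ fixC k' s ↔ ∀ c : k', σ (toKb k' c) = toKb k' c := by
  rw [mem_fixC]
  refine forall_congr' (fun c => ?_)
  have h1 := hs.lifts σ (toKb k' c) (algebraMap k' (maxUnr k K) c) rfl
  constructor
  · intro h
    apply Subtype.ext
    rw [h1, h]
    rfl
  · intro h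
    apply Subtype.ext
    rw [← h1, h]
    rfl

lemma range_resHom (hs : IsSection k K s) : letI := algKb (k := k) (K := K) k';
    (resHom (k := k) (K := K) k').range = fixC k' s := by
  let _ := algKb (k := k) (K := K) k'
  have := tower_kb (k := k) (K := K) k'
  ext σ
  rw [mem_fixC_iff hs]
  constructor
  · rintro ⟨g, rfl⟩ c
    exact g.commutes c
  · intro h
    exact ⟨AlgEquiv.ofRingEquiv (f := (σ : constClosure k K ≃+* constClosure k K)) h, rfl⟩

lemma continuous_resHom : letI := algKb (k := k) (K := K) k';
    Continuous (resHom (k := k) (K := K) k') := by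
  classical
  let _ := algKb (k := k) (K := K) k'
  have := tower_kb (k := k) (K := K) k'
  apply continuous_of_continuousAt_one (resHom (k := k) (K := K) k')
  rw [ContinuousAt, map_one]
  intro U hU
  rw [krullTopology_mem_nhds_one_iff] at hU
  obtain ⟨L, hL, hLU⟩ := hU
  rw [Filter.mem_map, krullTopology_mem_nhds_one_iff]
  let b := Module.finBasis k L
  refine ⟨IntermediateField.adjoin k' (Set.range (fun i => (b i : constClosure k K))), ?_, ?_⟩
  · have := (Set.finite_range (fun i => (b i : constClosure k K)))
    apply IntermediateField.finiteDimensional_adjoin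
    intro x _
    exact (Algebra.IsIntegral.isIntegral (R := k) x).tower_top
  · intro g hg
    apply hLU
    rw [SetLike.mem_coe, IntermediateField.mem_fixingSubgroup_iff] at hg ⊢
    intro x hx
    rw [resHom_apply]
    have h1 : x = ∑ i, b.repr ⟨x, hx⟩ i • (b i : constClosure k K) := by
      have h2 := congrArg L.val (b.sum_repr ⟨x, hx⟩)
      rw [map_sum] at h2
      exact h2.symm
    rw [h1, map_sum]
    refine Finset.sum_congr rfl (fun i _ => ?_)
    have h2 : g (algebraMap k (constClosure k K) (b.repr ⟨x, hx⟩ i)) =
        algebraMap k (constClosure k K) (b.repr ⟨x, hx⟩ i) :=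
      (g.restrictScalars k).commutes _
    rw [Algebra.smul_def, map_mul, h2, hg _ (IntermediateField.subset_adjoin k' _ ⟨i, rfl⟩)]

/-- the partial characters, from the group over `k'` -/
theorem hasChars_of (p : ℕ) [Fact p.Prime] [Algebra ℚ_[p] k'] (hs : IsSection k K s)
    (h : letI := algKb (k := k) (K := K) k';
      ∀ S : Finset (maxUnr k K), (∀ f ∈ S, ∀ g : constClosure k K ≃ₐ[k'] constClosure k K,
        s (resHom (k := k) (K := K) k' g) f = f) →
          ∃ χ : maxUnr k K → Cl p k', PartChar p k' S χ) : HasChars p s (fixC k' s) k' := by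
  let _ := algKb (k := k) (K := K) k'
  intro S hS
  refine h S (fun f hf g => hS f hf _ ?_)
  rw [← range_resHom hs]
  exact ⟨g, rfl⟩

/-- uniqueness of stable places, from the group over `k'` -/
theorem uniqueStable_of (hs : IsSection k K s)
    (h : letI := algKb (k := k) (K := K) k';
      ∀ W₁ W₂ : ValuationSubring (maxUnr k K),
        (∀ c : k, algebraMap k (maxUnr k K) c ∈ W₁) →
        (∀ c : k, algebraMap k (maxUnr k K) c ∈ W₂) → W₁ ≠ ⊤ → W₂ ≠ ⊤ →
        (∀ (g : constClosure k K ≃ₐ[k'] constClosure k K), ∀ x ∈ W₁,
          s (resHom (k := k) (K := K) k' g) x ∈ W₁) →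
        (∀ (g : constClosure k K ≃ₐ[k'] constClosure k K), ∀ x ∈ W₂,
          s (resHom (k := k) (K := K) k' g) x ∈ W₂) → W₁ = W₂) :
    UniqueStable s (fixC k' s) := by
  let _ := algKb (k := k) (K := K) k'
  intro W₁ W₂ h₁ h₂ ht₁ ht₂ hs₁ hs₂
  refine h W₁ W₂ h₁ h₂ ht₁ ht₂ (fun g x hx => hs₁ _ ?_ x hx) (fun g x hx => hs₂ _ ?_ x hx)
  · rw [← range_resHom hs]
    exact ⟨g, rfl⟩
  · rw [← range_resHom hs]
    exact ⟨g, rfl⟩

end P025H855
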