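import Mathlib

/-! # A parameter over which finitely many functions and their inverses are integral -/

open IntermediateField Polynomial

namespace P025H855

universe u v w

section algIndep

variable {k : Type u} {kb : Type v} {N : Type w} [Field k] [Field kb] [Field N] [Algebra k kb]
  [Algebra k N] [Algebra kb N] [IsScalarTower k kb N]

/-- if `x` is transcendental over `kb` then `N` is algebraic over `k(x)` -/
lemma isAlgebraic_adjoin_of (halg : Algebra.IsAlgebraic k kb) {x : N}
    (h : ∀ y : N, IsAlgebraic (Algebra.adjoin kb {x}) y) (y : N) : IsAlgebraic k⟮x⟯ y := by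
  set M₀ := algebraicClosure k⟮x⟯ N with hM₀
  have hkb : ∀ a : kb, algebraMap kb N a ∈ M₀ := by
    intro a
    rw [hM₀, mem_algebraicClosure_iff]
    have h1 : IsAlgebraic k (algebraMap kb N a) := (halg.isAlgebraic a).algebraMap
    exact h1.tower_top k⟮x⟯
  have hx : x ∈ M₀ := by
    rw [hM₀, mem_algebraicClosure_iff]
    exact isAlgebraic_algebraMap (⟨x, mem_adjoin_simple_self k x⟩ : k⟮x⟯)
  have hB : ∀ z : Algebra.adjoin kb {x}, (z : N) ∈ M₀ := by
    rintro ⟨z, hz⟩
    induction hz using Algebra.adjoin_induction with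
    | mem z hz =>
      have hz' : z = x := hz
      show z ∈ M₀
      rw [hz']; exact hx
    | algebraMap a => exact hkb a
    | add a b _ _ ha hb => exact M₀.add_mem ha hb
    | mul a b _ _ ha hb => exact M₀.mul_mem ha hb
  let ι : Algebra.adjoin kb {x} →+* M₀ :=
    (algebraMap (Algebra.adjoin kb {x}) N).codRestrict M₀.toSubfield.toSubring hB
  have hι : Function.Injective ι := fun a b hab => Subtype.ext
    (congrArg (fun z : M₀ => (z : N)) hab)
  obtain ⟨P, hP0, hP⟩ := h y
  have h2 : IsAlgebraic M₀ y := by
    refine ⟨P.map ι, (Polynomial.map_ne_zero_iff hι).2 hP0, ?_⟩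
    rw [aeval_def, eval₂_map]
    rw [aeval_def] at hP
    exact hP
  exact h2.restrictScalars k⟮x⟯

end algIndep

section noether

variable {k : Type u} {kb : Type v} {N : Type w} [Field k] [Field kb] [Field N] [Algebra k kb]
  [Algebra k N] [Algebra kb N] [IsScalarTower k kb N]

/-- **Noether normalization** inside a field of transcendence degree one. -/
theorem exists_param (halg : Algebra.IsAlgebraic k kb)
    (htr : ∀ T x : N, Transcendental kb T → IsAlgebraic (Algebra.adjoin kb {T}) x)
    (S : Finset N) {t₀ : N} (ht₀S : t₀ ∈ S) (ht₀ : Transcendental kb t₀) :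
    ∃ T : N, T ∈ Algebra.adjoin k ((S : Set N) ∪ (fun x => x⁻¹) '' S) ∧ Transcendental kb T ∧
      ∀ f ∈ S, IsIntegral (Algebra.adjoin k {T}) f ∧ IsIntegral (Algebra.adjoin k {T}) f⁻¹ := by
  classical
  set A := Algebra.adjoin k ((S : Set N) ∪ (fun x => x⁻¹) '' S) with hA
  have hfg : A.FG := Subalgebra.fg_adjoin_finset (S ∪ S.image (fun x => x⁻¹)) |> fun h => by
    rw [hA]
    simpa using h
  have hfin : Algebra.FiniteType k A := (Subalgebra.fg_iff_finiteType A).1 hfg
  obtain ⟨n, g, hinj, hint⟩ := exists_integral_inj_algHom_of_fg k A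
  have htk : ∀ {x : N}, Transcendental k x → Transcendental kb x := by
    intro x hx h
    exact hx (h.restrictScalars k)
  have hkt : Transcendental k t₀ := fun h => ht₀ (h.tower_top kb)
  -- the images of the variables
  let x : Fin n → N := fun i => (g (MvPolynomial.X i) : N)
  have hx : AlgebraicIndependent k x := by
    have h1 : (MvPolynomial.aeval x : MvPolynomial (Fin n) k →ₐ[k] N) = A.val.comp g := by
      apply MvPolynomial.algHom_ext
      intro i
      simp [x]
    rw [AlgebraicIndependent, h1]
    exact Subtype.val_injective.comp hinj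
  -- every element of `A` is integral over the image
  have hintA : ∀ a : A, ∃ P : (MvPolynomial (Fin n) k)[X], P.Monic ∧
      eval₂ ((A.val : A →+* N).comp (g : MvPolynomial (Fin n) k →+* A)) (a : N) P = 0 := by
    intro a
    obtain ⟨P, hP, hPa⟩ := hint a
    refine ⟨P, hP, ?_⟩
    have h2 : eval₂ (g : MvPolynomial (Fin n) k →+* A) a P = 0 := hPa
    have h3 := hom_eval₂ P (g : MvPolynomial (Fin n) k →+* A) (A.val : A →+* N) a
    rw [h2, map_zero] at h3
    exact h3.symm
  have hn0 : n ≠ 0 := by
    rintro rfl
    apply hkt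
    obtain ⟨P, hP, hPa⟩ := hintA ⟨t₀, Algebra.subset_adjoin (Or.inl ht₀S)⟩
    let e := MvPolynomial.isEmptyAlgEquiv k (Fin 0)
    have h1 : ((A.val : A →+* N).comp (g : MvPolynomial (Fin 0) k →+* A)) =
        (algebraMap k N).comp (e : MvPolynomial (Fin 0) k →+* k) := by
      apply MvPolynomial.ringHom_ext
      · intro c
        have h2 : e (MvPolynomial.C c) = c := by
          rw [← MvPolynomial.algebraMap_eq]
          exact e.commutes c
        have h3 : ((g (MvPolynomial.C c) : A) : N) = algebraMap k N c := by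
          rw [← MvPolynomial.algebraMap_eq, AlgHom.commutes]
          rfl
        show ((g (MvPolynomial.C c) : A) : N) = algebraMap k N (e (MvPolynomial.C c))
        rw [h2, h3]
      · intro i; exact i.elim0
    rw [h1, ← eval₂_map] at hPa
    have h2 : IsIntegral k t₀ := ⟨_, hP.map _, hPa⟩
    exact h2.isAlgebraic
  have hn1 : n ≤ 1 := by
    by_contra hcon
    push Not at hcon
    let i0 : Fin n := ⟨0, by omega⟩
    have h0 : Transcendental k (x i0) := hx.transcendental i0
    have h1 : ∀ y : N, IsAlgebraic k⟮x i0⟯ y :=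
      isAlgebraic_adjoin_of halg (fun y => htr _ y (htk h0))
    have h2 : Algebra.trdeg k N ≤ 1 := by
      have h3 : AlgebraicIndependent k (fun _ : Unit => x i0) :=
        algebraicIndependent_unique_type_iff.2 h0
      have h4 : IsTranscendenceBasis k (fun _ : Unit => x i0) := by
        rw [isTranscendenceBasis_iff_algebraicIndependent_isAlgebraic]
        refine ⟨h3, ⟨fun y => ?_⟩⟩
        have h5 : Set.range (fun _ : Unit => x i0) = {x i0} := by simp
        have h6 : IsAlgebraic (Algebra.adjoin k {x i0}) y :=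
          IntermediateField.isAlgebraic_adjoin_iff.1 (h1 y)
        rw [h5]
        exact h6
      have h5 := h4.lift_cardinalMk_eq_trdeg
      simp at h5
      rw [← h5]
    have h3 := hx.lift_cardinalMk_le_trdeg
    simp at h3
    have h4 : (n : Cardinal.{w}) ≤ 1 := h3.trans h2
    have h5 : n ≤ 1 := by exact_mod_cast h4
    omega
  obtain rfl : n = 1 := by omega
  refine ⟨x 0, (g (MvPolynomial.X 0)).2, htk (hx.transcendental 0), ?_⟩
  have hmem : ∀ P : MvPolynomial (Fin 1) k, ((g P : A) : N) ∈ Algebra.adjoin k {x 0} := by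
    intro P
    induction P using MvPolynomial.induction_on with
    | C c =>
      have h1 : ((g (MvPolynomial.C c) : A) : N) = algebraMap k N c := by
        rw [← MvPolynomial.algebraMap_eq, AlgHom.commutes]
        rfl
      rw [h1]
      exact Subalgebra.algebraMap_mem _ _
    | add p q hp hq =>
      rw [map_add]
      exact Subalgebra.add_mem _ hp hq
    | mul_X p i hp =>
      rw [map_mul]
      have hi : i = 0 := Subsingleton.elim _ _
      rw [hi]
      exact Subalgebra.mul_mem _ hp (Algebra.subset_adjoin rfl)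
  let h : MvPolynomial (Fin 1) k →+* Algebra.adjoin k {x 0} :=
    ((A.val : A →+* N).comp (g : MvPolynomial (Fin 1) k →+* A)).codRestrict
      (Algebra.adjoin k {x 0}).toSubring hmem
  have key : ∀ a : A, IsIntegral (Algebra.adjoin k {x 0}) (a : N) := by
    intro a
    obtain ⟨P, hP, hPa⟩ := hintA a
    refine ⟨P.map h, hP.map h, ?_⟩
    rw [eval₂_map]
    exact hPa
  intro f hf
  exact ⟨key ⟨f, Algebra.subset_adjoin (Or.inl hf)⟩,
    key ⟨f⁻¹, Algebra.subset_adjoin (Or.inr ⟨f, hf, rfl⟩)⟩⟩

end noether

end P025H855
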