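import Mathlib

/-! # Valuation rings over the constants of a field of transcendence degree one have the constants
as residue field -/

open Polynomial

namespace P025H855

universe v w

section basic

variable {kb : Type v} {A : Type w} [Field kb] [IsAlgClosed kb] [CommRing A] [IsDomain A]
  [Algebra kb A]

/-- algebraic elements over an algebraically closed field are constants -/
lemma exists_const_of_alg {x : A} (h : IsAlgebraic kb x) : ∃ a : kb, algebraMap kb A a = x := by
  obtain ⟨P, hP0, hP⟩ := h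
  have hs := (IsAlgClosed.splits P).eq_prod_roots
  rw [hs, map_mul, aeval_C, map_multiset_prod, Multiset.map_map] at hP
  have hlc : algebraMap kb A P.leadingCoeff ≠ 0 := by
    rw [Ne, FaithfulSMul.algebraMap_eq_zero_iff]
    exact leadingCoeff_ne_zero.2 hP0
  rcases mul_eq_zero.1 hP with h1 | h1
  · exact absurd h1 hlc
  rw [Multiset.prod_eq_zero_iff, Multiset.mem_map] at h1
  obtain ⟨a, -, ha⟩ := h1
  refine ⟨a, ?_⟩
  simp only [Function.comp_apply, map_sub, aeval_X, aeval_C] at ha
  exact (sub_eq_zero.1 ha).symm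

end basic

variable {kb : Type v} {N : Type w} [Field kb] [Field N] [Algebra kb N]

/-- constants have value one -/
lemma val_kb {W : ValuationSubring N} (hk : ∀ a : kb, algebraMap kb N a ∈ W) {a : kb}
    (ha : a ≠ 0) : W.valuation (algebraMap kb N a) = 1 := by
  apply le_antisymm ((W.valuation_le_one_iff _).2 (hk a))
  have h1 := (W.valuation_le_one_iff _).2 (hk a⁻¹)
  rw [map_inv₀, map_inv₀] at h1
  have h2 : W.valuation (algebraMap kb N a) ≠ 0 := by
    rw [Ne, map_eq_zero, map_eq_zero]; exact ha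
  exact (inv_le_one₀ (zero_lt_iff.2 h2)).1 h1

variable [IsAlgClosed kb]

/-- a nonunit is transcendental -/
lemma transcendental_of_lt {W : ValuationSubring N}
    (hk : ∀ a : kb, algebraMap kb N a ∈ W) {y : N} (hy0 : y ≠ 0) (hy : W.valuation y < 1) :
    Transcendental kb y := by
  intro h
  obtain ⟨a, rfl⟩ := exists_const_of_alg h
  have ha : a ≠ 0 := by
    rintro rfl
    exact hy0 (map_zero _)
  exact hy.ne (val_kb hk ha)

/-- **the residue field** -/
theorem exists_const_near' (htr : ∀ T x : N, Transcendental kb T →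
      IsAlgebraic (Algebra.adjoin kb {T}) x) {W : ValuationSubring N}
    (hk : ∀ a : kb, algebraMap kb N a ∈ W) (hW : W ≠ ⊤) {x : N} (hx : x ∈ W) :
    ∃ a : kb, W.valuation (x - algebraMap kb N a) < 1 := by
  classical
  obtain ⟨y, hy0, hy⟩ : ∃ y : N, y ≠ 0 ∧ W.valuation y < 1 := by
    by_contra hcon
    push Not at hcon
    apply hW
    ext z
    simp only [ValuationSubring.mem_top, iff_true]
    by_cases hz : z = 0
    · rw [hz]; exact W.zero_mem
    have h1 := hcon z⁻¹ (inv_ne_zero hz)
    rw [map_inv₀, one_le_inv₀ (zero_lt_iff.2 ((_root_.map_ne_zero _).2 hz))] at h1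
    exact (W.valuation_le_one_iff _).1 h1
  have hyt := transcendental_of_lt hk hy0 hy
  have hyW : y ∈ W := (W.valuation_le_one_iff _).1 hy.le
  obtain ⟨P, hP0, hP⟩ := htr y x hyt
  -- polynomials in `y`
  have hsurj : ∀ z : Algebra.adjoin kb {y}, ∃ q : kb[X], aeval y q = (z : N) := by
    rintro ⟨z, hz⟩
    rw [Algebra.adjoin_singleton_eq_range_aeval] at hz
    exact hz
  choose q hq using hsurj
  have hinj : Function.Injective (aeval y : kb[X] →ₐ[kb] N) :=
    transcendental_iff_injective.1 hyt
  -- a polynomial over `kb[y]`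
  let Q₀ : kb[X][X] := ∑ i ∈ P.support, monomial i (q (P.coeff i))
  have hQ₀c : ∀ i, aeval y (Q₀.coeff i) = ((P.coeff i : Algebra.adjoin kb {y}) : N) := by
    intro i
    simp only [Q₀, finsetSum_coeff, coeff_monomial]
    rw [Finset.sum_ite_eq' P.support i]
    split_ifs with h
    · exact hq _
    · rw [notMem_support_iff.1 h, map_zero]
      rfl
  have hQ₀0 : Q₀ ≠ 0 := by
    intro h0
    apply hP0
    ext i
    have h1 := hQ₀c i
    rw [h0, coeff_zero, map_zero] at h1
    rw [coeff_zero]
    exact h1.symm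
  have hevQ₀ : eval₂ ((aeval y : kb[X] →ₐ[kb] N) : kb[X] →+* N) x Q₀ = 0 := by
    rw [aeval_eq_sum_range] at hP
    rw [eval₂_eq_sum_range' _ (n := P.natDegree + 1) (by
      rw [Nat.lt_succ_iff]
      refine natDegree_le_iff_coeff_eq_zero.2 (fun n hn => ?_)
      apply hinj
      rw [map_zero, hQ₀c, coeff_eq_zero_of_natDegree_lt hn]
      rfl)]
    refine Eq.trans (Finset.sum_congr rfl (fun i _ => ?_)) hP
    have h1 := hQ₀c i
    rw [Algebra.smul_def]
    exact congrArg (· * x ^ i) h1
  -- remove the factors `X`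
  have hnu : ¬ IsUnit (C X : kb[X][X]) := by
    rw [isUnit_C]
    exact not_isUnit_X
  obtain ⟨Q, hQ, hQnd⟩ :=
    (FiniteMultiplicity.of_not_isUnit hnu hQ₀0).exists_eq_pow_mul_and_not_dvd
  have hevQ : eval₂ ((aeval y : kb[X] →ₐ[kb] N) : kb[X] →+* N) x Q = 0 := by
    rw [hQ, eval₂_mul, eval₂_pow, eval₂_C] at hevQ₀
    rcases mul_eq_zero.1 hevQ₀ with h1 | h1
    · exfalso
      have h2 : ((aeval y : kb[X] →ₐ[kb] N) : kb[X] →+* N) X = y := aeval_X y
      rw [h2] at h1
      exact hy0 (eq_zero_of_pow_eq_zero h1)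
    · exact h1
  -- the residue field
  let ι : kb →+* W := (algebraMap kb N).codRestrict W.toSubring (fun a => hk a)
  let _ : Algebra kb W := ι.toAlgebra
  let π : W →+* IsLocalRing.ResidueField W := IsLocalRing.residue W
  let _ : Algebra kb (IsLocalRing.ResidueField W) := (π.comp ι).toAlgebra
  let y' : W := ⟨y, hyW⟩
  let x' : W := ⟨x, hx⟩
  have hy' : π y' = 0 := by
    rw [IsLocalRing.residue_eq_zero_iff, W.valuation_lt_one_iff]
    exact hy
  let φ : kb[X] →+* W := eval₂RingHom ι y'
  have hφ : ∀ R : kb[X], ((φ R : W) : N) = aeval y R := by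
    intro R
    have h1 := hom_eval₂ R ι (algebraMap W N) y'
    exact h1
  have hevW : eval₂ φ x' Q = 0 := by
    apply Subtype.ext
    have h1 := hom_eval₂ Q φ (algebraMap W N) x'
    have h2 : (algebraMap W N).comp φ = ((aeval y : kb[X] →ₐ[kb] N) : kb[X] →+* N) :=
      RingHom.ext hφ
    rw [h2] at h1
    exact h1.trans hevQ
  have hres : eval₂ (π.comp φ) (π x') Q = 0 := by
    rw [← hom_eval₂, hevW, map_zero]
  have hcomp : π.comp φ = (algebraMap kb (IsLocalRing.ResidueField W)).comp (evalRingHom 0) := by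
    apply Polynomial.ringHom_ext
    · intro a
      show π (φ (C a)) = π (ι (eval 0 (C a)))
      rw [eval_C]
      congr 1
      exact eval₂_C _ _
    · show π (φ X) = π (ι (eval 0 X))
      have h1 : φ X = y' := eval₂_X _ _
      rw [h1, hy', eval_X, map_zero, map_zero]
  rw [hcomp, ← eval₂_map] at hres
  have hQ1 : Q.map (evalRingHom 0) ≠ 0 := by
    intro h0
    apply hQnd
    rw [C_dvd_iff_dvd_coeff]
    intro i
    have h1 := congrArg (fun R : kb[X] => R.coeff i) h0
    simp only [coeff_map, coe_evalRingHom, coeff_zero] at h1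
    rw [X_dvd_iff, coeff_zero_eq_eval_zero]
    exact h1
  have halg : IsAlgebraic kb (π x') := ⟨_, hQ1, hres⟩
  obtain ⟨a, ha⟩ := exists_const_of_alg halg
  refine ⟨a, ?_⟩
  have h1 : π (x' - ι a) = 0 := by
    rw [map_sub, sub_eq_zero]
    exact ha.symm
  rw [IsLocalRing.residue_eq_zero_iff, W.valuation_lt_one_iff] at h1
  exact h1

end P025H855
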