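import Vale.Agent.P025.R2.H855.Defs

/-! # Sections over one rational place are conjugate -/

open IntermediateField

namespace P025H855

open P025H641 P025H206 P025H16 Polynomial

open scoped Pointwise

universe u v w

variable {k : Type u} {K : Type v} [Field k] [CharZero k] [Field K] [Algebra k K]

omit [CharZero k] in
lemma integral_mem_of {V : ValuationSubring K} {W : ValuationSubring (maxUnr k K)}
    (hW : W.comap (algebraMap K (maxUnr k K)) = V) {b : maxUnr k K} (hb : IsIntegral V b) :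
    b ∈ W := by
  subst hW
  exact integral_mem W hb

omit [CharZero k] in
lemma exists_denom_of {V : ValuationSubring K} {W : ValuationSubring (maxUnr k K)}
    (hW : W.comap (algebraMap K (maxUnr k K)) = V) (x : maxUnr k K) (hx : x ∈ W) :
    ∃ b : maxUnr k K, IsIntegral V b ∧ W.valuation b = 1 ∧ IsIntegral V (b * x) := by
  subst hW
  obtain ⟨b, hb, hbx⟩ := exists_denom_maxUnr W x hx
  exact ⟨b, b.2, hb, hbx⟩

omit [CharZero k] in
lemma val_lt_iff_of {V : ValuationSubring K} {W : ValuationSubring (maxUnr k K)}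
    (hW : W.comap (algebraMap K (maxUnr k K)) = V) (a : K) :
    W.valuation (algebraMap K (maxUnr k K) a) < 1 ↔ V.valuation a < 1 := by
  subst hW
  exact ((comap_isEquiv (F := K) W).lt_one_iff_lt_one (x := a)).symm

/-- the Galois group permutes the extensions of a valuation ring transitively -/
theorem exists_maps {W₁ W₂ : ValuationSubring (maxUnr k K)}
    (hW : W₂.comap (algebraMap K (maxUnr k K)) = W₁.comap (algebraMap K (maxUnr k K))) :
    ∃ g : Gal(maxUnr k K/K), ∀ x, x ∈ W₁ ↔ g x ∈ W₂ := by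
  have hchar : CharZero K := charZero_of_injective_algebraMap (algebraMap k K).injective
  let _ : TopologicalSpace (BK W₁) := ⊥
  have hd : DiscreteTopology (BK W₁) := ⟨rfl⟩
  have hcont := continuousSMul_BK W₁
  let toW₂ : BK W₁ →+* W₂ := ((BK W₁).val : BK W₁ →+* maxUnr k K).codRestrict W₂.toSubring
    (fun x => integral_mem_of hW x.2)
  let P₂ : Ideal (BK W₁) := (IsLocalRing.maximalIdeal W₂).comap toW₂
  have hP₂prime : P₂.IsPrime := Ideal.comap_isPrime _ _
  have memP₂ : ∀ b : BK W₁, b ∈ P₂ ↔ W₂.valuation (b : maxUnr k K) < 1 := by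
    intro b
    rw [Ideal.mem_comap]
    exact W₂.valuation_lt_one_iff _
  have hunder : (PK W₁).under (VK W₁) = P₂.under (VK W₁) := by
    ext a
    rw [Ideal.mem_comap, Ideal.mem_comap, mem_PK, memP₂]
    exact ((val_lt_iff_of rfl (a : K)).trans (val_lt_iff_of hW (a : K)).symm)
  obtain ⟨g, hg⟩ := Algebra.IsInvariant.exists_smul_of_under_eq_of_profinite
    (A := VK W₁) (G := Gal(maxUnr k K/K)) (PK W₁) P₂ hunder
  have hP : ∀ b : BK W₁, b ∈ PK W₁ ↔ g • b ∈ P₂ := by
    intro b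
    rw [hg]
    exact (Ideal.smul_mem_pointwise_smul_iff).symm
  have hle₂ : ∀ b : BK W₁, W₂.valuation (b : maxUnr k K) ≤ 1 := fun b =>
    (W₂.valuation_le_one_iff _).2 (integral_mem_of hW b.2)
  refine ⟨g, fun x => ⟨fun hx => ?_, fun hx => ?_⟩⟩
  · obtain ⟨b, hb0, hb1, hbx⟩ := exists_denom_of rfl x hx
    have hgb : W₂.valuation ((g • (⟨b, hb0⟩ : BK W₁) : BK W₁) : maxUnr k K) = 1 := by
      rcases (hle₂ (g • ⟨b, hb0⟩)).lt_or_eq with h | h
      · rw [← memP₂, ← hP, mem_PK] at h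
        exact absurd h (by simpa using hb1.ge)
      · exact h
    have h1 : g (b * x) ∈ W₂ := integral_mem_of hW (g • (⟨_, hbx⟩ : BK W₁) : BK W₁).2
    rw [map_mul] at h1
    have h2 : g b = ((g • (⟨b, hb0⟩ : BK W₁) : BK W₁) : maxUnr k K) := rfl
    rw [h2, ← W₂.valuation_le_one_iff, map_mul, hgb, one_mul] at h1
    exact (W₂.valuation_le_one_iff _).1 h1
  · obtain ⟨b, hb0, hb1, hbx⟩ := exists_denom_of hW (g x) hx
    have hinv : ∀ z, g (g⁻¹ z) = z := by
      intro z
      rw [← AlgEquiv.mul_apply, mul_inv_cancel]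
      rfl
    have hinv' : ∀ z, g⁻¹ (g z) = z := by
      intro z
      rw [← AlgEquiv.mul_apply, inv_mul_cancel]
      rfl
    have hgb : W₁.valuation ((g⁻¹ • (⟨b, hb0⟩ : BK W₁) : BK W₁) : maxUnr k K) = 1 := by
      rcases (val_BK_le W₁ (g⁻¹ • ⟨b, hb0⟩)).lt_or_eq with h | h
      · rw [← mem_PK, hP, smul_inv_smul, memP₂] at h
        exact absurd h (by simpa using hb1.ge)
      · exact h
    have h1 : g⁻¹ (b * g x) ∈ W₁ := integral_mem W₁ (g⁻¹ • (⟨_, hbx⟩ : BK W₁) : BK W₁).2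
    rw [map_mul, hinv'] at h1
    have h2 : g⁻¹ b = ((g⁻¹ • (⟨b, hb0⟩ : BK W₁) : BK W₁) : maxUnr k K) := rfl
    rw [h2, ← W₁.valuation_le_one_iff, map_mul, hgb, one_mul] at h1
    exact (W₁.valuation_le_one_iff _).1 h1

/-- the action of an automorphism on the constants -/
lemma exists_onConst (g : Gal(maxUnr k K/K)) : ∃ γ : Gal(constClosure k K/k),
    ∀ (c : constClosure k K) (y : maxUnr k K), (c : AlgebraicClosure K) = (y : AlgebraicClosure K) →
      ((g y : maxUnr k K) : AlgebraicClosure K) = ((γ c : constClosure k K) : AlgebraicClosure K) := by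
  let ι : constClosure k K → maxUnr k K := fun c =>
    ⟨(c : AlgebraicClosure K), mem_maxUnr_of_const _ (mem_algebraicClosure_iff.1 c.2).isIntegral⟩
  have hmem : ∀ (h : Gal(maxUnr k K/K)) (c : constClosure k K),
      ((h (ι c) : maxUnr k K) : AlgebraicClosure K) ∈ constClosure k K := by
    intro h c
    have h1 : IsIntegral k (ι c) :=
      isIntegral_coe.1 (mem_algebraicClosure_iff.1 c.2).isIntegral
    have h2 : IsIntegral k (h (ι c)) := h1.map
      (((h : (maxUnr k K) ≃ₐ[K] (maxUnr k K)) : (maxUnr k K) →ₐ[K] (maxUnr k K)).restrictScalars k)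
    exact mem_algebraicClosure_iff.2 (isIntegral_coe.2 h2).isAlgebraic
  let f : Gal(maxUnr k K/K) → constClosure k K → constClosure k K := fun h c => ⟨_, hmem h c⟩
  have hfι : ∀ h c, ι (f h c) = h (ι c) := fun h c => rfl
  have hιinj : Function.Injective ι := fun a b h => Subtype.ext
    (congrArg (fun z : maxUnr k K => (z : AlgebraicClosure K)) h)
  have hιadd : ∀ a b, ι (a + b) = ι a + ι b := fun a b => rfl
  have hιmul : ∀ a b, ι (a * b) = ι a * ι b := fun a b => rfl
  let γ : constClosure k K ≃ₐ[k] constClosure k K :=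
    { toFun := f g
      invFun := f g⁻¹
      left_inv := fun c => by
        apply hιinj
        rw [hfι, hfι, ← AlgEquiv.mul_apply, inv_mul_cancel]
        rfl
      right_inv := fun c => by
        apply hιinj
        rw [hfι, hfι, ← AlgEquiv.mul_apply, mul_inv_cancel]
        rfl
      map_add' := fun a b => by
        apply hιinj
        rw [hfι, hιadd, map_add, hιadd, hfι, hfι]
      map_mul' := fun a b => by
        apply hιinj
        rw [hfι, hιmul, map_mul, hιmul, hfι, hfι]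
      commutes' := fun c => by
        apply hιinj
        rw [hfι]
        have h1 : ι (algebraMap k (constClosure k K) c) = algebraMap K (maxUnr k K)
          (algebraMap k K c) := rfl
        rw [h1, AlgEquiv.commutes] }
  refine ⟨γ, fun c y hcy => ?_⟩
  have h1 : y = ι c := Subtype.ext hcy.symm
  rw [h1]
  rfl

/-- `g` acts trivially on the constants -/
def TrivConst (g : Gal(maxUnr k K/K)) : Prop :=
  ∀ y : maxUnr k K, IsIntegral k y → g y = y

/-- **Conjugacy.** Two sections stabilizing places over the same rational place are conjugate. -/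
theorem exists_conj (hK : IsFunctionField k K)
    {s₁ s₂ : Gal(constClosure k K/k) →* Gal(maxUnr k K/K)} (hs₁ : IsSection k K s₁)
    (hs₂ : IsSection k K s₂) {W₁ W₂ : ValuationSubring (maxUnr k K)}
    (hW : W₂.comap (algebraMap K (maxUnr k K)) = W₁.comap (algebraMap K (maxUnr k K)))
    (hrat : IsRatPlace k K (W₁.comap (algebraMap K (maxUnr k K))))
    (hst₁ : ∀ σ x, x ∈ W₁ → s₁ σ x ∈ W₁) (hst₂ : ∀ σ x, x ∈ W₂ → s₂ σ x ∈ W₂) :
    ∃ g : Gal(maxUnr k K/K), TrivConst g ∧ (∀ x, x ∈ W₁ ↔ g x ∈ W₂) ∧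
      ∀ σ, s₂ σ = g * s₁ σ * g⁻¹ := by
  have hst₁' : ∀ σ x, x ∈ W₁ ↔ s₁ σ x ∈ W₁ := fun σ x => ⟨hst₁ σ x, fun h => by
    have h1 := hst₁ σ⁻¹ _ h
    rwa [← AlgEquiv.mul_apply, ← map_mul, inv_mul_cancel, map_one] at h1⟩
  have hst₂' : ∀ σ x, x ∈ W₂ ↔ s₂ σ x ∈ W₂ := fun σ x => ⟨hst₂ σ x, fun h => by
    have h1 := hst₂ σ⁻¹ _ h
    rwa [← AlgEquiv.mul_apply, ← map_mul, inv_mul_cancel, map_one] at h1⟩
  have hrat₂ : IsRatPlace k K (W₂.comap (algebraMap K (maxUnr k K))) := by rw [hW]; exact hrat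
  obtain ⟨g₀, hg₀⟩ := exists_maps hW
  obtain ⟨γ, hγ⟩ := exists_onConst g₀
  obtain ⟨τ, hτ1, hτ2⟩ := exists_lift W₁ hrat γ
  have hinv : ∀ (h : Gal(maxUnr k K/K)) z, h (h⁻¹ z) = z := by
    intro h z
    rw [← AlgEquiv.mul_apply, mul_inv_cancel]
    rfl
  have hinv' : ∀ (h : Gal(maxUnr k K/K)) z, h⁻¹ (h z) = z := by
    intro h z
    rw [← AlgEquiv.mul_apply, inv_mul_cancel]
    rfl
  set g := g₀ * τ⁻¹ with hg
  have hgW : ∀ x, x ∈ W₁ ↔ g x ∈ W₂ := by
    intro x
    rw [hg, AlgEquiv.mul_apply, ← hg₀, hτ1 (τ⁻¹ x), hinv]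
  have hgc : TrivConst g := by
    intro y hy
    have hyc : (y : AlgebraicClosure K) ∈ constClosure k K :=
      mem_algebraicClosure_iff.2 (isIntegral_coe.2 hy).isAlgebraic
    have h1 : ∀ c : constClosure k K, g₀ (ofC W₁ hrat c : maxUnr k K) =
        τ (ofC W₁ hrat c : maxUnr k K) := by
      intro c
      apply Subtype.ext
      rw [hτ2 c]
      exact hγ c _ rfl
    -- `τ⁻¹ y` is a constant
    have h2 : IsIntegral k (τ⁻¹ y) := hy.map
      (((τ⁻¹ : (maxUnr k K) ≃ₐ[K] (maxUnr k K)) : (maxUnr k K) →ₐ[K] (maxUnr k K)).restrictScalars k)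
    have h3 : τ⁻¹ y = (ofC W₁ hrat ⟨((τ⁻¹ y : maxUnr k K) : AlgebraicClosure K),
      mem_algebraicClosure_iff.2 (isIntegral_coe.2 h2).isAlgebraic⟩ : maxUnr k K) := rfl
    rw [hg, AlgEquiv.mul_apply, h3, h1, ← h3, hinv]
  refine ⟨g, hgc, hgW, fun σ => ?_⟩
  have good₂ : Good W₂ hrat₂ σ (s₂ σ) := by
    refine ⟨hst₂' σ, fun c => ?_⟩
    exact (hs₂.lifts σ c _ rfl).symm
  have good₁ : Good W₂ hrat₂ σ (g * s₁ σ * g⁻¹) := by
    refine ⟨fun x => ?_, fun c => ?_⟩
    · rw [AlgEquiv.mul_apply, AlgEquiv.mul_apply, ← hgW, ← hst₁', hgW, hinv]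
    · have h1 : g⁻¹ (ofC W₂ hrat₂ c : maxUnr k K) = (ofC W₂ hrat₂ c : maxUnr k K) := by
        apply g.injective
        rw [hinv]
        exact (hgc _ (ofC_integral W₂ hrat₂ c)).symm
      rw [AlgEquiv.mul_apply, AlgEquiv.mul_apply, h1]
      have h2 : ((s₁ σ (ofC W₂ hrat₂ c : maxUnr k K) : maxUnr k K) : AlgebraicClosure K) =
          ((σ c : constClosure k K) : AlgebraicClosure K) := (hs₁.lifts σ c _ rfl).symm
      have h3 : IsIntegral k (s₁ σ (ofC W₂ hrat₂ c : maxUnr k K)) :=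
        (ofC_integral W₂ hrat₂ c).map
          (((s₁ σ : (maxUnr k K) ≃ₐ[K] (maxUnr k K)) :
            (maxUnr k K) →ₐ[K] (maxUnr k K)).restrictScalars k)
      rw [hgc _ h3]
      exact h2
  exact Good.unique hK good₂ good₁

end P025H855
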