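import Vale.Agent.P025.R2.H855.Genus
import Vale.Agent.P025.R2.H855.Final2

/-! # The final theorem from the main input -/

open IntermediateField

namespace P025H855

open P025H641 P025H206 Vale.Agent.P019P

universe u v

/-- **The local `p`-adic section conjecture**, from the main input for function fields of genus at
least two. -/
theorem conjecture_of_gen
    (h : ∀ (p : ℕ) [Fact p.Prime] (k : Type u) [Field k] [Algebra ℚ_[p] k]
      [FiniteDimensional ℚ_[p] k] (K : Type v) [Field K] [Algebra k K] [CharZero k]
      [CFF (constClosure k K) (geomField k K)], IsFunctionField k K →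
      (∀ x : K, IsIntegral k x → ∃ c : k, algebraMap k K c = x) →
      2 ≤ gen (constClosure k K) (geomField k K) → MainInput p k K)
    (p : ℕ) [Fact p.Prime] (k : Type u) [Field k] [Algebra ℚ_[p] k]
    [FiniteDimensional ℚ_[p] k] (K : Type v) [Field K] [Algebra k K] (hK : IsHyperbolic k K) :
    haveI : CharZero k := charZero_of_injective_algebraMap (algebraMap ℚ_[p] k).injective
    ∃ e : {V : ValuationSubring K // IsRatPlace k K V} ≃ Quotient (sectionSetoid k K),
      ∀ (V : {V : ValuationSubring K // IsRatPlace k K V}) (s : Section k K),
        e V = Quotient.mk (sectionSetoid k K) s ↔ ∃ W : ValuationSubring (maxUnr k K),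
          W.comap (algebraMap K (maxUnr k K)) = V.1 ∧ Stabilizes s W := by
  have hchar : CharZero k := charZero_of_injective_algebraMap (algebraMap ℚ_[p] k).injective
  have hcff := cff_geomField hK.funField
  exact conjecture_of_mainInput p k K hK.funField
    (h p k K hK.funField hK.constants (two_le_gen hK))

end P025H855
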