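import Vale.Agent.P025.R2.H855.CharsOf
import Vale.Agent.P025.R2.H505.ExistP
import Vale.Agent.P025.R2.H505.Bridge

/-! # The output of the tree side from its rows -/

open IntermediateField Polynomial
open scoped Pointwise

namespace P025H855

open P025H641 P025H720 P025H109 P025H505 P025H281 P025H544 P025H373

universe u v w x

section tree

variable {p : ℕ} [Fact p.Prime] {k : Type x} [Field k] [Algebra ℚ_[p] k]
  [FiniteDimensional ℚ_[p] k] {kb : Type v} [Field kb] [Algebra k kb] [IsGalois k kb]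
  [IsAlgClosed kb] (C : Type u) [NontriviallyNormedField C] [IsUltrametricDist C]
  [CompleteSpace C] [IsAlgClosed C] [CharZero C] (N : Type w) [Field N] [Algebra kb C]
  [Algebra kb N] [TrdegOne kb N] [Algebra k N] [IsScalarTower k kb N]
  [MulSemiringAction Gal(kb/k) C] [NormAct Gal(kb/k) C] [MulSemiringAction Gal(kb/k) N]
  [OpenStab Gal(kb/k) N] [Equi Gal(kb/k) kb C] [Equi Gal(kb/k) kb N]

/-- the hypothesis (D) of `chars_of` from a relation `Cont` between disc vertices and places -/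
theorem hD_of_cont
    (Cont : ∀ (T : N) [Fact (Transcendental kb T)], DT C kb N T → ValuationSubring N → Prop)
    (h2a : ∀ (T : N) [Fact (Transcendental kb T)] (d : DT C kb N T), ∃ W : ValuationSubring N,
      (∀ c : kb, algebraMap kb N c ∈ W) ∧ T ∉ W ∧ Cont T d W)
    (h2d : ∀ (T : N) [Fact (Transcendental kb T)] [FixedT Gal(kb/k) T] (g : Gal(kb/k))
      (d : DT C kb N T) (W : ValuationSubring N), Cont T d W → Cont T (g • d) (g • W))
    (h2e : ∀ (T : N), Transcendental kb T → ∀ F : Finset N, ∃ R : ℝ, ∀ c : kb,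
      R ≤ ‖algebraMap kb C c‖ → ∀ (T' : N) [Fact (Transcendental kb T')],
      T' * algebraMap kb N c = T → ∀ (d : DT C kb N T') (W W' : ValuationSubring N),
      Cont T' d W → Cont T' d W' → ∀ x ∈ IntermediateField.adjoin kb (F : Set N), x ∈ W → x ∈ W')
    (T : N) (hT : Transcendental kb T) (F : Finset N) :
      ∃ R : ℝ, ∀ c : k, R ≤ ‖algebraMap kb C (algebraMap k kb c)‖ →
        ∀ (T' : N) [Fact (Transcendental kb T')] [FixedT Gal(kb/k) T'],
        T' * algebraMap k N c = T → ∀ d : DT C kb N T', (∀ g : Gal(kb/k), g • d = d) →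
        ∃ W : ValuationSubring N, (∀ a : kb, algebraMap kb N a ∈ W) ∧ T ∉ W ∧
          ∀ g : Gal(kb/k), ∀ x ∈ IntermediateField.adjoin kb (F : Set N), x ∈ W → g • x ∈ W := by
  obtain ⟨R, hR⟩ := h2e T hT F
  refine ⟨R, fun c hc T' _ _ hT' d hd => ?_⟩
  rw [IsScalarTower.algebraMap_apply k kb N] at hT'
  obtain ⟨W, hW, hTW, hC⟩ := h2a T' d
  have hc0 : algebraMap k kb c ≠ 0 := by
    intro h0
    rw [h0, map_zero, mul_zero] at hT'
    exact hT (hT' ▸ isAlgebraic_zero)
  have hTW' : T ∉ W := by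
    intro h
    apply hTW
    have h1 : T' = T * algebraMap kb N (algebraMap k kb c)⁻¹ := by
      rw [← hT', map_inv₀, mul_inv_cancel_right₀ ((_root_.map_ne_zero _).2 hc0)]
    rw [h1]
    exact W.mul_mem _ _ h (hW _)
  refine ⟨W, hW, hTW', fun g x hx hxW => ?_⟩
  have h1 : Cont T' d (g⁻¹ • W) := by
    have h2 := h2d T' g⁻¹ d W hC
    rwa [hd] at h2
  have h3 := hR _ hc T' hT' d W (g⁻¹ • W) hC h1 x hx hxW
  rwa [ValuationSubring.mem_inv_pointwise_smul_iff] at h3

variable [Algebra ℚ_[p] kb] [IsScalarTower ℚ_[p] k kb] [Algebra.IsAlgebraic ℚ_[p] kb]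

/-- **The output of the tree side from its rows.** -/
theorem treeOutput_of (hpC : ‖(p : C)‖ < 1)
    -- A-GRAPH
    (hcl : ∀ (T : N) [Fact (Transcendental kb T)] (n : ℕ) [NeZero n],
      TopClosed (RatFunc C) (F1 C) (F2 C) (NCT C kb N T) n)
    -- A-UNIQ
    (hU : ∀ (T : N) [Fact (Transcendental kb T)] [FixedT Gal(kb/k) T] (q : ℕ) [Fact q.Prime]
      (H : Subgroup Gal(kb/k)), IsClosed (H : Set Gal(kb/k)) →
      IsPro q H → ValK p kb k q H → ∀ e e' : ET C kb N T, (∀ s : H, s • e = e) →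
        (∀ s : H, s • e' = e') → e = e')
    -- A2.2
    (hpow : ∀ (T : N) [Fact (Transcendental kb T)] (v : VT C kb N T), UnitPow p v)
    -- the relation between disc vertices and places
    (Cont : ∀ (T : N) [Fact (Transcendental kb T)], DT C kb N T → ValuationSubring N → Prop)
    (h2a : ∀ (T : N) [Fact (Transcendental kb T)] (d : DT C kb N T), ∃ W : ValuationSubring N,
      (∀ c : kb, algebraMap kb N c ∈ W) ∧ T ∉ W ∧ Cont T d W)
    (h2d : ∀ (T : N) [Fact (Transcendental kb T)] [FixedT Gal(kb/k) T] (g : Gal(kb/k))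
      (d : DT C kb N T) (W : ValuationSubring N), Cont T d W → Cont T (g • d) (g • W))
    (h2e : ∀ (T : N), Transcendental kb T → ∀ F : Finset N, ∃ R : ℝ, ∀ c : kb,
      R ≤ ‖algebraMap kb C c‖ → ∀ (T' : N) [Fact (Transcendental kb T')],
      T' * algebraMap kb N c = T → ∀ (d : DT C kb N T') (W W' : ValuationSubring N),
      Cont T' d W → Cont T' d W' → ∀ x ∈ IntermediateField.adjoin kb (F : Set N), x ∈ W → x ∈ W')
    -- uniqueness of stable places, from the uniqueness of fixed disc vertices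
    (huniq : (∀ (T : N) [Fact (Transcendental kb T)] [FixedT Gal(kb/k) T] (y y' : DT C kb N T),
        (∀ s : Gal(kb/k), s • y = y) → (∀ s : Gal(kb/k), s • y' = y') → y = y') →
      ∀ W₁ W₂ : ValuationSubring N, (∀ c : kb, algebraMap kb N c ∈ W₁) →
        (∀ c : kb, algebraMap kb N c ∈ W₂) → W₁ ≠ ⊤ → W₂ ≠ ⊤ →
        (∀ σ : Gal(kb/k), ∀ x ∈ W₁, σ • x ∈ W₁) → (∀ σ : Gal(kb/k), ∀ x ∈ W₂, σ • x ∈ W₂) →
          W₁ = W₂) : TreeOutput p k kb N where
  chars ζ hζ S hS := by
    refine chars_of C N hpC ?_ hpow (fun T hT _ F => hD_of_cont C N Cont h2a h2d h2e T hT F) hζ S hS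
    intro T _ _
    exact (exists_fixed_P' p C kb N T (fun n _ => hcl T n)
      (fun q _ H h1 h2 h3 e e' h4 h5 => hU T q H h1 h2 h3 e e' h4 h5)).1
  uniq W₁ W₂ h1 h2 h3 h4 h5 h6 := by
    refine huniq ?_ W₁ W₂ h1 h2 h3 h4 h5 h6
    intro T _ _ y y' hy hy'
    exact (exists_fixed_P' p C kb N T (fun n _ => hcl T n)
      (fun q _ H h1 h2 h3 e e' h4 h5 => hU T q H h1 h2 h3 e e' h4 h5)).2.2 y y' hy hy'

end tree

end P025H855
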